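import Mathlib

/-!
Areas (`μHE[2]`) of planar pieces of Euclidean three-space.
-/

set_option autoImplicit false
open MeasureTheory
open scoped ENNReal

namespace Crest.Agent.R211

abbrev E2 := EuclideanSpace ℝ (Fin 2)
abbrev E3 := EuclideanSpace ℝ (Fin 3)

/-- The area of the parallelogram spanned by `a` and `b`. -/
noncomputable def gramA (a b : E3) : ℝ := Real.sqrt (‖a‖ ^ 2 * ‖b‖ ^ 2 - inner ℝ a b ^ 2)

theorem gramA_nonneg (a b : E3) : 0 ≤ gramA a b := Real.sqrt_nonneg _

theorem gram_arg_nonneg (a b : E3) : 0 ≤ ‖a‖ ^ 2 * ‖b‖ ^ 2 - inner ℝ a b ^ 2 := by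
  have h := abs_real_inner_le_norm a b
  have h2 : |inner ℝ a b| ^ 2 ≤ (‖a‖ * ‖b‖) ^ 2 := pow_le_pow_left₀ (abs_nonneg _) h 2
  rw [sq_abs] at h2
  nlinarith

theorem gramA_sq (a b : E3) : gramA a b ^ 2 = ‖a‖ ^ 2 * ‖b‖ ^ 2 - inner ℝ a b ^ 2 :=
  Real.sq_sqrt (gram_arg_nonneg a b)

/-- The linear map `x ↦ x 0 • a + x 1 • b`. -/
noncomputable def linAB (a b : E3) : E2 →ₗ[ℝ] E3 where
  toFun x := x 0 • a + x 1 • b
  map_add' x y := by simp only [PiLp.add_apply, add_smul]; abel
  map_smul' r x := by simp only [PiLp.smul_apply, smul_eq_mul, RingHom.id_apply, smul_add, mul_smul]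

theorem normDet_linAB (a b : E3) : (linAB a b).normDet = gramA a b := by
  have h := (linAB a b).normDet_sq_eq_det_gram (EuclideanSpace.basisFun (Fin 2) ℝ)
  have h2 : (linAB a b).normDet ^ 2 = gramA a b ^ 2 := by
    rw [gramA_sq]
    have : ((linAB a b).normDet ^ 2 : ℝ) = _ := h
    rw [this, Matrix.det_fin_two]
    simp [Matrix.gram, linAB, real_inner_comm, sq]
  exact (sq_eq_sq₀ (linAB a b).normDet_nonneg (gramA_nonneg a b)).mp h2

theorem area_add_image (c : E3) (S : Set E3) : μHE[2] ((fun x => c + x) '' S) = μHE[2] S :=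
  (isometry_add_left c).euclideanHausdorffMeasure_image S

/-- The area of an affine image of a subset of the Euclidean plane. -/
theorem area_affine_image_E2 (c a b : E3) (S : Set E2) :
    μHE[2] ((fun x : E2 => c + x 0 • a + x 1 • b) '' S) =
      ENNReal.ofReal (gramA a b) * volume S := by
  have h := (linAB a b).euclideanHausdorffMeasure_image_eq_normDet_mul_volume S
  rw [normDet_linAB] at h
  have h2 : Module.finrank ℝ E2 = 2 := by simp
  rw [h2] at h
  rw [← h, ← area_add_image c (linAB a b '' S), Set.image_image]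
  congr 1
  apply Set.image_congr
  intro x _
  simp [linAB, add_assoc]

/-- The measurable identification of the Euclidean plane with `ℝ × ℝ`. -/
noncomputable def e2Equiv : E2 ≃ᵐ ℝ × ℝ :=
  (MeasurableEquiv.toLp 2 (Fin 2 → ℝ)).symm.trans MeasurableEquiv.finTwoArrow

theorem e2Equiv_apply (x : E2) : e2Equiv x = (x 0, x 1) := rfl

theorem e2Equiv_mp : MeasurePreserving e2Equiv volume volume :=
  (volume_preserving_finTwoArrow ℝ).comp (EuclideanSpace.volume_preserving_symm_measurableEquiv_toLp (Fin 2))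

/-- The area of an affine image of a subset of `ℝ × ℝ`. -/
theorem area_affine_image (c a b : E3) (S : Set (ℝ × ℝ)) :
    μHE[2] ((fun x : ℝ × ℝ => c + x.1 • a + x.2 • b) '' S) =
      ENNReal.ofReal (gramA a b) * volume S := by
  rw [← e2Equiv_mp.measure_preimage_equiv S, ← area_affine_image_E2]
  congr 1
  ext y
  constructor
  · rintro ⟨x, hx, rfl⟩
    refine ⟨e2Equiv.symm x, by simpa using hx, ?_⟩
    have h := e2Equiv_apply (e2Equiv.symm x)
    rw [MeasurableEquiv.apply_symm_apply] at h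
    simp only
    rw [show (e2Equiv.symm x) 0 = x.1 from (congrArg Prod.fst h).symm,
      show (e2Equiv.symm x) 1 = x.2 from (congrArg Prod.snd h).symm]
  · rintro ⟨x, hx, rfl⟩
    exact ⟨e2Equiv x, hx, rfl⟩

/-- The standard triangle in `ℝ × ℝ`. -/
def stdTri : Set (ℝ × ℝ) := {x | 0 ≤ x.1 ∧ 0 ≤ x.2 ∧ x.1 + x.2 ≤ 1}

theorem volume_stdTri : volume stdTri = ENNReal.ofReal (1 / 2) := by
  have h1 : volume (regionBetween (fun _ : ℝ => (0 : ℝ)) (fun x => 1 - x) (Set.Icc (0 : ℝ) 1))
      = ENNReal.ofReal (1 / 2) := by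
    rw [Measure.volume_eq_prod, volume_regionBetween_eq_integral]
    · congr 1
      rw [integral_Icc_eq_integral_Ioc, ← intervalIntegral.integral_of_le zero_le_one]
      simp only [Pi.sub_apply, sub_zero]
      rw [intervalIntegral.integral_sub (by simp) (by simp)]
      simp
      norm_num
    · simp
    · exact (continuous_const.sub continuous_id).integrableOn_Icc
    · exact measurableSet_Icc
    · intro x hx; linarith [hx.2]
  have hm : MeasurableSet stdTri := by
    apply IsClosed.measurableSet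
    unfold stdTri
    exact (isClosed_le continuous_const continuous_fst).inter
      ((isClosed_le continuous_const continuous_snd).inter
        (isClosed_le (continuous_fst.add continuous_snd) continuous_const))
  rw [← h1, Measure.volume_eq_prod, Measure.prod_apply hm,
    Measure.prod_apply (measurableSet_regionBetween (f := fun _ : ℝ => (0 : ℝ))
      (g := fun x => 1 - x) measurable_const
      (measurable_const.sub measurable_id) measurableSet_Icc)]
  congr 1
  ext x
  by_cases hx : x ∈ Set.Icc (0 : ℝ) 1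
  · have e1 : Prod.mk x ⁻¹' stdTri = Set.Icc 0 (1 - x) := by
      ext y; simp only [stdTri, Set.mem_preimage, Set.mem_ofPred_eq, Set.mem_Icc]
      constructor
      · rintro ⟨_, h2, h3⟩; exact ⟨h2, by linarith⟩
      · rintro ⟨h2, h3⟩; exact ⟨hx.1, h2, by linarith⟩
    have e2 : Prod.mk x ⁻¹' regionBetween (fun _ : ℝ => (0 : ℝ)) (fun x => 1 - x)
        (Set.Icc (0 : ℝ) 1) = Set.Ioo 0 (1 - x) := by
      ext y; simp only [regionBetween, Set.mem_preimage, Set.mem_ofPred_eq, hx, true_and]
    rw [e1, e2]; simp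
  · have e1 : Prod.mk x ⁻¹' stdTri = ∅ := by
      ext y; simp only [stdTri, Set.mem_preimage, Set.mem_ofPred_eq, Set.mem_empty_iff_false,
        iff_false]
      rintro ⟨h1, h2, h3⟩
      exact hx ⟨h1, by linarith⟩
    have e2 : Prod.mk x ⁻¹' regionBetween (fun _ : ℝ => (0 : ℝ)) (fun x => 1 - x)
        (Set.Icc (0 : ℝ) 1) = ∅ := by
      ext y; simp only [regionBetween, Set.mem_preimage, Set.mem_ofPred_eq, hx, false_and,
        Set.mem_empty_iff_false]
    rw [e1, e2]

theorem convex_tri_image (c a b : E3) :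
    Convex ℝ ((fun x : ℝ × ℝ => c + x.1 • a + x.2 • b) '' stdTri) := by
  rintro _ ⟨x, hx, rfl⟩ _ ⟨y, hy, rfl⟩ s t hs ht hst
  refine ⟨(s * x.1 + t * y.1, s * x.2 + t * y.2), ⟨?_, ?_, ?_⟩, ?_⟩
  · have := hx.1; have := hy.1; simp only; positivity
  · have := hx.2.1; have := hy.2.1; simp only; positivity
  · have h1 := hx.2.2; have h2 := hy.2.2; simp only; nlinarith
  · simp only
    have : c = (s + t) • c := by rw [hst, one_smul]
    conv_lhs => rw [this]
    module

theorem mem_convexHull_tri {K : Set E3} (hK : Convex ℝ K) {p q r : E3} (hp : p ∈ K) (hq : q ∈ K)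
    (hr : r ∈ K) {x y : ℝ} (hx : 0 ≤ x) (hy : 0 ≤ y) (hxy : x + y ≤ 1) :
    p + x • (q - p) + y • (r - p) ∈ K := by
  have h := hK.sum_mem (t := Finset.univ) (w := ![1 - x - y, x, y]) (z := ![p, q, r])
    (by intro i _; fin_cases i <;> simp <;> linarith)
    (by simp [Fin.sum_univ_three]; ring) (by intro i _; fin_cases i <;> simpa)
  have e : p + x • (q - p) + y • (r - p) = ∑ i, ![1 - x - y, x, y] i • ![p, q, r] i := by
    simp [Fin.sum_univ_three]; module
  rw [e]; exact h

theorem convexHull_tri_eq (p q r : E3) :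
    convexHull ℝ ({p, q, r} : Set E3) =
      (fun x : ℝ × ℝ => p + x.1 • (q - p) + x.2 • (r - p)) '' stdTri := by
  apply Set.Subset.antisymm
  · apply convexHull_min _ (convex_tri_image _ _ _)
    intro x hx
    rcases hx with rfl | rfl | rfl
    · exact ⟨(0, 0), by simp [stdTri], by simp⟩
    · exact ⟨(1, 0), by simp [stdTri], by simp⟩
    · exact ⟨(0, 1), by simp [stdTri], by simp⟩
  · rintro _ ⟨x, hx, rfl⟩
    exact mem_convexHull_tri (convex_convexHull ℝ _) (subset_convexHull ℝ _ (by simp))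
      (subset_convexHull ℝ _ (by simp)) (subset_convexHull ℝ _ (by simp)) hx.1 hx.2.1 hx.2.2

theorem mem_convexHull_tri_iff (p q r z : E3) :
    z ∈ convexHull ℝ ({p, q, r} : Set E3) ↔
      ∃ x y : ℝ, 0 ≤ x ∧ 0 ≤ y ∧ x + y ≤ 1 ∧ z = p + x • (q - p) + y • (r - p) := by
  rw [convexHull_tri_eq]
  constructor
  · rintro ⟨x, hx, rfl⟩; exact ⟨x.1, x.2, hx.1, hx.2.1, hx.2.2, rfl⟩
  · rintro ⟨x, y, h1, h2, h3, rfl⟩; exact ⟨(x, y), ⟨h1, h2, h3⟩, rfl⟩

/-- The area of a triangle. -/
theorem area_triangle (p q r : E3) :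
    μHE[2] (convexHull ℝ ({p, q, r} : Set E3)) = ENNReal.ofReal (gramA (q - p) (r - p) / 2) := by
  rw [convexHull_tri_eq, area_affine_image, volume_stdTri,
    ← ENNReal.ofReal_mul (gramA_nonneg _ _)]
  congr 1; ring

theorem area_triangle_toReal (p q r : E3) :
    (μHE[2] (convexHull ℝ ({p, q, r} : Set E3))).toReal = gramA (q - p) (r - p) / 2 := by
  rw [area_triangle, ENNReal.toReal_ofReal (by have := gramA_nonneg (q - p) (r - p); positivity)]

/-- The area of a closed parallelogram. -/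
theorem area_parallelogram (c a b : E3) :
    μHE[2] {x : E3 | ∃ s ∈ Set.Icc (0 : ℝ) 1, ∃ t ∈ Set.Icc (0 : ℝ) 1, x = c + s • a + t • b} =
      ENNReal.ofReal (gramA a b) := by
  have h := area_affine_image c a b (Set.Icc (0 : ℝ) 1 ×ˢ Set.Icc (0 : ℝ) 1)
  rw [Measure.volume_eq_prod, Measure.prod_prod] at h
  simp only [Real.volume_Icc, sub_zero, ENNReal.ofReal_one, mul_one] at h
  rw [← h]
  congr 1
  ext y
  constructor
  · rintro ⟨s, hs, t, ht, rfl⟩; exact ⟨(s, t), ⟨hs, ht⟩, rfl⟩
  · rintro ⟨x, hx, rfl⟩; exact ⟨x.1, hx.1, x.2, hx.2, rfl⟩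

theorem area_parallelogram_toReal (c a b : E3) :
    (μHE[2] {x : E3 | ∃ s ∈ Set.Icc (0 : ℝ) 1, ∃ t ∈ Set.Icc (0 : ℝ) 1,
      x = c + s • a + t • b}).toReal = gramA a b := by
  rw [area_parallelogram, ENNReal.toReal_ofReal (gramA_nonneg _ _)]

theorem gramA_smul (s t : ℝ) (a b : E3) : gramA (s • a) (t • b) = |s| * |t| * gramA a b := by
  rw [← sq_eq_sq₀ (gramA_nonneg _ _) (by have := gramA_nonneg a b; positivity), gramA_sq,
    mul_pow, mul_pow, gramA_sq, norm_smul, norm_smul, real_inner_smul_left, real_inner_smul_right]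
  simp only [Real.norm_eq_abs, mul_pow, sq_abs]
  ring

theorem gramA_zero_right (a : E3) : gramA a 0 = 0 := by simp [gramA]

/-- A line has zero area. -/
theorem area_line (c a : E3) : μHE[2] {x : E3 | ∃ s : ℝ, x = c + s • a} = 0 := by
  have h := area_affine_image c a 0 Set.univ
  rw [gramA_zero_right] at h
  simp only [smul_zero, add_zero, ENNReal.ofReal_zero, zero_mul] at h
  rw [← h]
  congr 1
  ext y
  constructor
  · rintro ⟨s, rfl⟩; exact ⟨(s, 0), trivial, rfl⟩
  · rintro ⟨x, _, rfl⟩; exact ⟨x.1, rfl⟩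

/-- Bounded subsets of a plane through the origin have finite area. -/
theorem area_lt_top_of_bounded {u : E3} (hu : u ≠ 0) {S : Set E3} (hS : Bornology.IsBounded S)
    (hSu : ∀ x ∈ S, inner ℝ x u = 0) : μHE[2] S < ⊤ := by
  set P : Submodule ℝ E3 := (ℝ ∙ u)ᗮ with hP
  have hfin : Module.finrank ℝ P = 2 := by
    have : Fact (Module.finrank ℝ E3 = 2 + 1) := ⟨by simp⟩
    exact Submodule.finrank_orthogonal_span_singleton hu
  have hiso : Isometry ((↑) : P → E3) := isometry_subtype_coe
  have himg : S = ((↑) : P → E3) '' (((↑) : P → E3) ⁻¹' S) := by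
    ext x
    constructor
    · intro hx
      refine ⟨⟨x, ?_⟩, hx, rfl⟩
      rw [hP, Submodule.mem_orthogonal_singleton_iff_inner_left]
      exact hSu x hx
    · rintro ⟨y, hy, rfl⟩; exact hy
  rw [himg, hiso.euclideanHausdorffMeasure_image, ← hfin,
    InnerProductSpace.euclideanHausdorffMeasure_eq_volume]
  exact (hiso.antilipschitz.isBounded_preimage hS).measure_lt_top

/-- A compact planar set is contained in a bounded relatively open set of almost the same area. -/
theorem exists_open_base {u : E3} (hu : u ≠ 0) {S : Set E3} (hS : IsCompact S)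
    (hSu : ∀ x ∈ S, inner ℝ x u = 0) {η : ℝ} (hη : 0 < η) :
    ∃ B : Set E3, S ⊆ B ∧ Bornology.IsBounded B ∧
      (∃ O : Set E3, IsOpen O ∧ B = O ∩ {x | inner ℝ x u = 0}) ∧
      (μHE[2] B).toReal ≤ (μHE[2] S).toReal + η := by
  set H : Set E3 := {x | inner ℝ x u = 0} with hH
  have hHm : MeasurableSet H :=
    (isClosed_eq (continuous_id.inner continuous_const) continuous_const).measurableSet
  set μ : Measure E3 := (μHE[2] : Measure E3).restrict H with hμ
  have hfin : ∀ R : ℝ, μ (Metric.thickening R S) ≠ ⊤ := by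
    intro R
    rw [hμ, Measure.restrict_apply' hHm]
    exact (area_lt_top_of_bounded hu (hS.isBounded.thickening.subset Set.inter_subset_left)
      (fun x hx => hx.2)).ne
  have ht := tendsto_measure_thickening_of_isClosed (μ := μ) ⟨1, one_pos, hfin 1⟩ hS.isClosed
  have hμS : μ S = μHE[2] S := by
    rw [hμ, Measure.restrict_apply' hHm, Set.inter_eq_left.mpr (show S ⊆ H from fun x hx => hSu x hx)]
  have hSfin : μHE[2] S ≠ ⊤ := (area_lt_top_of_bounded hu hS.isBounded hSu).ne
  rw [hμS] at ht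
  have ht2 := (ENNReal.tendsto_toReal hSfin).comp ht
  have hev := ht2.eventually (gt_mem_nhds (show (μHE[2] S).toReal < (μHE[2] S).toReal + η by
    linarith))
  obtain ⟨r, hr, hr0⟩ := (hev.and self_mem_nhdsWithin).exists
  refine ⟨Metric.thickening r S ∩ H, ?_, hS.isBounded.thickening.subset Set.inter_subset_left,
    ⟨_, Metric.isOpen_thickening, rfl⟩, ?_⟩
  · intro x hx
    exact ⟨Metric.self_subset_thickening hr0 S hx, hSu x hx⟩
  · have : μ (Metric.thickening r S) = μHE[2] (Metric.thickening r S ∩ H) := by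
      rw [hμ, Measure.restrict_apply' hHm]
    rw [← this]
    exact hr.le

/-- The determinant of three vectors. -/
def det3 (a b u : E3) : ℝ :=
  a 0 * (b 1 * u 2 - b 2 * u 1) - a 1 * (b 0 * u 2 - b 2 * u 0) + a 2 * (b 0 * u 1 - b 1 * u 0)

theorem inner_E3 (a b : E3) : inner ℝ a b = a 0 * b 0 + a 1 * b 1 + a 2 * b 2 := by
  simp [PiLp.inner_apply, Fin.sum_univ_three, mul_comm]

theorem norm_sq_E3 (a : E3) : ‖a‖ ^ 2 = a 0 ^ 2 + a 1 ^ 2 + a 2 ^ 2 := by
  rw [← real_inner_self_eq_norm_sq, inner_E3]; ring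

/-- Orthogonal projection along a unit vector. -/
noncomputable def proj (v y : E3) : E3 := y - inner ℝ y v • v

theorem proj_inner {v : E3} (hv : ‖v‖ = 1) (y : E3) : inner ℝ (proj v y) v = 0 := by
  simp [proj, inner_sub_left, real_inner_smul_left, hv]

theorem proj_add (v x y : E3) : proj v (x + y) = proj v x + proj v y := by
  simp only [proj, inner_add_left]; module

theorem proj_sub (v x y : E3) : proj v (x - y) = proj v x - proj v y := by
  simp only [proj, inner_sub_left]; module

theorem proj_smul (v x : E3) (s : ℝ) : proj v (s • x) = s • proj v x := by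
  simp only [proj, real_inner_smul_left]; module

theorem gramA_proj {v : E3} (hv : ‖v‖ = 1) (a b : E3) :
    gramA (proj v a) (proj v b) = |det3 a b v| := by
  rw [← sq_eq_sq₀ (gramA_nonneg _ _) (abs_nonneg _), gramA_sq, sq_abs]
  have hv2 : v 0 ^ 2 + v 1 ^ 2 + v 2 ^ 2 = 1 := by rw [← norm_sq_E3, hv]; norm_num
  have e1 : ∀ x y : E3, inner ℝ (proj v x) (proj v y) = inner ℝ x y - inner ℝ x v * inner ℝ y v := by
    intro x y
    simp only [proj, inner_sub_left, inner_sub_right, real_inner_smul_left, real_inner_smul_right,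
      real_inner_self_eq_norm_sq, hv, real_inner_comm v x, real_inner_comm v y]
    ring
  rw [← real_inner_self_eq_norm_sq, ← real_inner_self_eq_norm_sq, e1, e1, e1]
  simp only [inner_E3, det3]
  linear_combination (-((a 0 * a 0 + a 1 * a 1 + a 2 * a 2) * (b 0 * b 0 + b 1 * b 1 + b 2 * b 2)
    - (a 0 * b 0 + a 1 * b 1 + a 2 * b 2) ^ 2)) * hv2

end Crest.Agent.R211
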