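import Crest.Agent.R211.Tet

/-!
Parallelogram bases, open bases, and the similarity classification of regular tetrahedra.
-/

set_option autoImplicit false
open MeasureTheory
open scoped ENNReal

namespace Crest.Agent.R211

theorem sum_fin_cast (n : ℕ) : ∑ j : Fin n, (j : ℝ) = n * (n - 1) / 2 := by
  rw [Fin.sum_univ_eq_sum_range (fun j : ℕ => (j : ℝ)) n]
  induction n with
  | zero => simp
  | succ k ih => rw [Finset.sum_range_succ, ih]; push_cast; ring

theorem TriCover.parallelogram {K : Set E3} {ι : Type} [Fintype ι] {A : ℝ} (h : TriCover K ι A)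
    (n : ℕ) (hn : 0 < n) :
    ∃ (k : ℕ) (u c a b : Fin k → E3), (∀ i, ‖u i‖ = 1) ∧
      (∀ i, inner ℝ (c i) (u i) = 0 ∧ inner ℝ (a i) (u i) = 0 ∧ inner ℝ (b i) (u i) = 0) ∧
      K ⊆ ⋃ i, {x : E3 | ∃ s ∈ Set.Icc (0 : ℝ) 1, ∃ t ∈ Set.Icc (0 : ℝ) 1, ∃ τ : ℝ,
        x = c i + s • a i + t • b i + τ • u i} ∧
      ∑ i, gramA (a i) (b i) = (1 + 1 / n) * A := by
  obtain ⟨u, p, q, r, h1, h2, h3, h4⟩ := h
  have hn' : (0 : ℝ) < n := by exact_mod_cast hn
  let f : Fin (Fintype.card (ι × Fin n)) ≃ ι × Fin n := (Fintype.equivFin _).symm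
  let C : ι × Fin n → E3 := fun j => p j.1 + ((j.2 : ℝ) / n) • (q j.1 - p j.1)
  let A' : ι × Fin n → E3 := fun j => (1 / n : ℝ) • (q j.1 - p j.1)
  let B' : ι × Fin n → E3 := fun j => (1 - (j.2 : ℝ) / n) • (r j.1 - p j.1)
  have hpos : ∀ j : Fin n, 0 < 1 - (j : ℝ) / n := by
    intro j
    have : (j : ℝ) < n := by exact_mod_cast j.2
    rw [sub_pos, div_lt_one hn']; exact this
  refine ⟨_, fun i => u (f i).1, fun i => C (f i), fun i => A' (f i), fun i => B' (f i),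
    fun i => h1 _, ?_, ?_, ?_⟩
  · intro i
    obtain ⟨k1, k2, k3⟩ := h2 (f i).1
    simp only [C, A', B', inner_add_left, real_inner_smul_left, inner_sub_left, k1, k2, k3]
    simp
  · intro x hx
    obtain ⟨i, b, hb, t, rfl⟩ := Set.mem_iUnion.mp (h3 hx)
    obtain ⟨α, β, hα, hβ, hαβ, rfl⟩ := (mem_convexHull_tri_iff _ _ _ _).mp hb
    obtain ⟨j, hj1, hj2⟩ := exists_piece_index n (2 / n) (2 * α - 1) (by positivity)
      (by field_simp) (by rw [abs_le]; constructor <;> linarith)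
    have e1 : (j : ℝ) * (2 / n) = 2 * ((j : ℝ) / n) := by ring
    have e2 : (2 : ℝ) / n = 2 * (1 / n) := by ring
    rw [e1] at hj1 hj2
    have hj1' : (j : ℝ) / n ≤ α := by linarith
    have hj2' : α ≤ (j : ℝ) / n + 1 / n := by linarith
    refine Set.mem_iUnion.mpr ⟨f.symm (i, j), n * α - j, ⟨?_, ?_⟩, β / (1 - (j : ℝ) / n),
      ⟨div_nonneg hβ (hpos j).le, ?_⟩, t, ?_⟩
    · rw [div_le_iff₀ hn'] at hj1'; linarith
    · rw [← add_div, le_div_iff₀ hn'] at hj2'; linarith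
    · rw [div_le_one (hpos j)]; linarith
    · simp only [Equiv.apply_symm_apply, C, A', B', smul_smul]
      rw [div_mul_cancel₀ _ (hpos j).ne']
      have : α = (j : ℝ) / n + (n * α - j) * (1 / n) := by field_simp; ring
      conv_lhs => rw [this]
      module
  · rw [Fintype.sum_equiv f _ (fun j => gramA (A' j) (B' j)) (fun i => rfl), Fintype.sum_prod_type,
      ← h4, Finset.mul_sum]
    apply Finset.sum_congr rfl
    intro i _
    simp only [A', B', gramA_smul]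
    rw [← Finset.sum_mul, ← Finset.mul_sum]
    have : ∑ j : Fin n, |1 - (j : ℝ) / n| = (n + 1) / 2 := by
      rw [Finset.sum_congr rfl (fun j _ => abs_of_pos (hpos j)), Finset.sum_sub_distrib,
        ← Finset.sum_div, sum_fin_cast]
      simp only [Finset.sum_const, Finset.card_univ, Fintype.card_fin, nsmul_eq_mul]
      field_simp
      ring
    rw [this, abs_of_pos (by positivity)]
    field_simp

theorem TriCover.openBases {K : Set E3} {k : ℕ} {A : ℝ} (h : TriCover K (Fin k) A)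
    {η : ℝ} (hη : 0 < η) :
    ∃ (u : Fin k → E3) (B : Fin k → Set E3), (∀ i, ‖u i‖ = 1) ∧
      (∀ i, Bornology.IsBounded (B i) ∧ ∃ O : Set E3, IsOpen O ∧
        B i = O ∩ {x | inner ℝ x (u i) = 0}) ∧
      K ⊆ ⋃ i, {x : E3 | ∃ y ∈ B i, ∃ τ : ℝ, x = y + τ • u i} ∧
      ∑ i, (μHE[2] (B i)).toReal ≤ A + η := by
  obtain ⟨u, p, q, r, h1, h2, h3, h4⟩ := h
  have hk : (0 : ℝ) < k + 1 := by positivity
  have hex : ∀ i, ∃ B : Set E3, convexHull ℝ {p i, q i, r i} ⊆ B ∧ Bornology.IsBounded B ∧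
      (∃ O : Set E3, IsOpen O ∧ B = O ∩ {x | inner ℝ x (u i) = 0}) ∧
      (μHE[2] B).toReal ≤ (μHE[2] (convexHull ℝ ({p i, q i, r i} : Set E3))).toReal
        + η / (k + 1) := by
    intro i
    apply exists_open_base (by intro h; have := h1 i; simp [h] at this)
      (Set.Finite.isCompact_convexHull ℝ (Set.toFinite _)) _ (by positivity)
    intro x hx
    obtain ⟨α, β, _, _, _, rfl⟩ := (mem_convexHull_tri_iff _ _ _ _).mp hx
    obtain ⟨k1, k2, k3⟩ := h2 i
    simp only [inner_add_left, real_inner_smul_left, inner_sub_left, k1, k2, k3]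
    simp
  choose B hB1 hB2 hB3 hB4 using hex
  refine ⟨u, B, h1, fun i => ⟨hB2 i, hB3 i⟩, ?_, ?_⟩
  · intro x hx
    obtain ⟨i, b, hb, t, rfl⟩ := Set.mem_iUnion.mp (h3 hx)
    exact Set.mem_iUnion.mpr ⟨i, b, hB1 i hb, t, rfl⟩
  · refine (Finset.sum_le_sum (fun i _ => hB4 i)).trans ?_
    simp only [area_triangle_toReal]
    rw [Finset.sum_add_distrib, h4]
    simp only [Finset.sum_const, Finset.card_univ, Fintype.card_fin, nsmul_eq_mul]
    have : (k : ℝ) * (η / (k + 1)) ≤ η := by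
      rw [mul_div_assoc', div_le_iff₀ hk]; nlinarith
    linarith

theorem margin_lemma {k : ℕ} (s : Fin k → ℝ) (u : Fin k → E3) (hu : ∀ i, ‖u i‖ = 1)
    (hs : ∀ i, 0 ≤ s i) (a : E3 → ℝ) (m : ℝ) (hm : 0 < m) (ha : ∀ v, ‖v‖ = 1 → m ≤ a v)
    (hsum : ∑ i, s i < m / 2) :
    (∃ δ : ℝ, 0 < δ ∧ ∀ v : E3, ‖v‖ = 1 → (∑ i, s i) + δ ≤ a v / 2) ∧
      ∑ i, s i / a (u i) < 1 / 2 := by
  refine ⟨⟨m / 2 - ∑ i, s i, by linarith, fun v hv => by linarith [ha v hv]⟩, ?_⟩
  calc ∑ i, s i / a (u i) ≤ ∑ i, s i / m :=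
        Finset.sum_le_sum (fun i _ => div_le_div_of_nonneg_left (hs i) hm (ha _ (hu i)))
    _ = (∑ i, s i) / m := by rw [Finset.sum_div]
    _ < 1 / 2 := by rw [div_lt_iff₀ hm]; linarith

theorem regular_tet_similar (w : Fin 4 → E3) (ℓ : ℝ) (hℓ : 0 < ℓ)
    (hw : ∀ i j, i ≠ j → dist (w i) (w j) = ℓ) :
    ∃ (T : E3 ≃ₗᵢ[ℝ] E3) (m : E3),
      convexHull ℝ (Set.range w) = (fun x => m + (ℓ / 2) • T x) '' Ktet := by
  have hs0 : 0 < Real.sqrt 2 := by positivity
  have hs : Real.sqrt 2 ^ 2 = 2 := Real.sq_sqrt (by norm_num)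
  have hd : ∀ i j, i ≠ j →
      (w i 0 - w j 0) ^ 2 + (w i 1 - w j 1) ^ 2 + (w i 2 - w j 2) ^ 2 = ℓ ^ 2 := by
    intro i j hij
    have := norm_sq_E3 (w i - w j)
    rw [← dist_eq_norm, hw i j hij] at this
    simpa using this.symm
  have h01 := hd 0 1 (by decide)
  have h02 := hd 0 2 (by decide)
  have h03 := hd 0 3 (by decide)
  have h12 := hd 1 2 (by decide)
  have h13 := hd 1 3 (by decide)
  have h23 := hd 2 3 (by decide)
  let g : Fin 3 → E3 := ![w 0 - w 1, w 2 - w 3, w 2 + w 3 - w 0 - w 1]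
  let κ : Fin 3 → ℝ := ![ℓ⁻¹, ℓ⁻¹, (Real.sqrt 2 * ℓ)⁻¹]
  have g00 : inner ℝ (g 0) (g 0) = ℓ ^ 2 := by
    simp only [g, inner_E3]; simp; linear_combination h01
  have g11 : inner ℝ (g 1) (g 1) = ℓ ^ 2 := by
    simp only [g, inner_E3]; simp; linear_combination h23
  have g22 : inner ℝ (g 2) (g 2) = 2 * ℓ ^ 2 := by
    simp only [g, inner_E3]; simp; linear_combination h02 + h13 + h12 + h03 - h23 - h01
  have g01 : inner ℝ (g 0) (g 1) = 0 := by
    simp only [g, inner_E3]; simp; linear_combination (h03 + h12 - h02 - h13) / 2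
  have g02 : inner ℝ (g 0) (g 2) = 0 := by
    simp only [g, inner_E3]; simp; linear_combination (h12 - h02 + h13 - h03) / 2
  have g12 : inner ℝ (g 1) (g 2) = 0 := by
    simp only [g, inner_E3]; simp; linear_combination (h02 - h03 + h12 - h13) / 2
  have hf : Orthonormal ℝ (fun i => κ i • g i) := by
    rw [orthonormal_iff_ite]
    intro i j
    rw [real_inner_smul_left, real_inner_smul_right]
    fin_cases i <;> fin_cases j
    · simp only [Fin.zero_eta, g00]; simp [κ]; field_simp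
    · simp only [Fin.zero_eta, Fin.mk_one, g01]; simp
    · simp only [Fin.zero_eta, Fin.reduceFinMk, g02]; simp
    · simp only [Fin.zero_eta, Fin.mk_one, real_inner_comm (g 0) (g 1), g01]; simp
    · simp only [Fin.mk_one, g11]; simp [κ]; field_simp
    · simp only [Fin.mk_one, Fin.reduceFinMk, g12]; simp
    · simp only [Fin.zero_eta, Fin.reduceFinMk, real_inner_comm (g 0) (g 2), g02]; simp
    · simp only [Fin.mk_one, Fin.reduceFinMk, real_inner_comm (g 1) (g 2), g12]; simp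
    · simp only [Fin.reduceFinMk, g22]; simp [κ]; field_simp; linarith
  let b : OrthonormalBasis (Fin 3) ℝ E3 :=
    (basisOfOrthonormalOfCardEqFinrank hf (by simp)).toOrthonormalBasis (by simpa using hf)
  have hb : ∀ i, b i = κ i • g i := by
    intro i; simp [b]
  have hT : ∀ x : E3, b.repr.symm x = x 0 • κ 0 • g 0 + x 1 • κ 1 • g 1 + x 2 • κ 2 • g 2 := by
    intro x
    rw [← b.sum_repr_symm, Fin.sum_univ_three, hb, hb, hb]
  refine ⟨b.repr.symm, (1 / 2 : ℝ) • (w 0 + w 1), ?_⟩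
  let φ : E3 →ᵃ[ℝ] E3 := AffineMap.const ℝ E3 ((1 / 2 : ℝ) • (w 0 + w 1)) +
    ((ℓ / 2) • b.repr.symm.toLinearEquiv.toLinearMap).toAffineMap
  have hφ : (fun x => (1 / 2 : ℝ) • (w 0 + w 1) + (ℓ / 2) • b.repr.symm x) = φ := by
    ext1 x; simp [φ]
  rw [hφ, Ktet, AffineMap.image_convexHull, ← hφ]
  congr 1
  have k0 : ℓ / 2 * ℓ⁻¹ = 1 / 2 := by field_simp
  have k2 : ℓ / 2 * (Real.sqrt 2 * (Real.sqrt 2 * ℓ)⁻¹) = 1 / 2 := by field_simp
  have hval : ∀ x : E3, (1 / 2 : ℝ) • (w 0 + w 1) + (ℓ / 2) • b.repr.symm x =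
      (1 / 2 : ℝ) • (w 0 + w 1) + (x 0 / 2) • (w 0 - w 1) + (x 1 / 2) • (w 2 - w 3) +
        (ℓ / 2 * (x 2 * (Real.sqrt 2 * ℓ)⁻¹)) • (w 2 + w 3 - w 0 - w 1) := by
    intro x
    rw [hT]
    simp only [κ, g, Matrix.cons_val_zero, Matrix.cons_val_one, Matrix.cons_val, smul_add,
      smul_smul]
    rw [show ℓ / 2 * (x 0 * ℓ⁻¹) = x 0 / 2 by field_simp,
      show ℓ / 2 * (x 1 * ℓ⁻¹) = x 1 / 2 by field_simp]
    module
  simp only [Set.image_insert_eq, Set.image_singleton, hval]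
  have r4 : Set.range w = {w 0, w 1, w 2, w 3} := by
    ext x
    simp only [Set.mem_range, Set.mem_insert_iff, Set.mem_singleton_iff]
    constructor
    · rintro ⟨i, rfl⟩; fin_cases i <;> simp
    · rintro (rfl | rfl | rfl | rfl) <;> exact ⟨_, rfl⟩
  rw [r4]
  simp only [PiLp.toLp_apply, Matrix.cons_val_zero, Matrix.cons_val_one, Matrix.cons_val, k2]
  congr 1
  · module
  congr 1
  · module
  congr 1
  · module
  congr 1
  · module

end Crest.Agent.R211
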