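import Crest.Agent.R211.Proj

/-!
An explicit covering of the regular tetrahedron by triangular cylinders of small total area.
-/

set_option autoImplicit false
open MeasureTheory
open scoped ENNReal

namespace Crest.Agent.R211

/-- `K` is covered by triangular cylinders indexed by `ι`, of total base area `A`. -/
def TriCover (K : Set E3) (ι : Type) [Fintype ι] (A : ℝ) : Prop :=
  ∃ u p q r : ι → E3, (∀ i, ‖u i‖ = 1) ∧
    (∀ i, inner ℝ (p i) (u i) = 0 ∧ inner ℝ (q i) (u i) = 0 ∧ inner ℝ (r i) (u i) = 0) ∧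
    K ⊆ ⋃ i, {x : E3 | ∃ b ∈ convexHull ℝ {p i, q i, r i}, ∃ t : ℝ, x = b + t • u i} ∧
    ∑ i, gramA (q i - p i) (r i - p i) / 2 = A

theorem det3_smul_right (A B U : E3) (c : ℝ) : det3 A B (c • U) = c * det3 A B U := by
  simp only [det3, PiLp.smul_apply, smul_eq_mul]; ring

theorem triCover_of_gen {K : Set E3} {ι : Type} [Fintype ι] (V A B U : ι → E3)
    (hU : ∀ i, U i ≠ 0)
    (hcov : ∀ P ∈ K, ∃ i, ∃ x y t : ℝ, 0 ≤ x ∧ 0 ≤ y ∧ x + y ≤ 1 ∧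
      P = V i + x • A i + y • B i + t • U i) :
    TriCover K ι (∑ i, |det3 (A i) (B i) (U i)| / (2 * ‖U i‖)) := by
  have hn : ∀ i, 0 < ‖U i‖ := fun i => norm_pos_iff.mpr (hU i)
  set u : ι → E3 := fun i => ‖U i‖⁻¹ • U i with hu
  have hu1 : ∀ i, ‖u i‖ = 1 := by
    intro i
    simp only [hu, norm_smul, norm_inv, norm_norm]
    exact inv_mul_cancel₀ (hn i).ne'
  refine ⟨u, fun i => proj (u i) (V i), fun i => proj (u i) (V i + A i),
    fun i => proj (u i) (V i + B i), hu1,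
    fun i => ⟨proj_inner (hu1 i) _, proj_inner (hu1 i) _, proj_inner (hu1 i) _⟩, ?_, ?_⟩
  · intro P hP
    obtain ⟨i, x, y, t, hx, hy, hxy, rfl⟩ := hcov P hP
    refine Set.mem_iUnion.mpr ⟨i, proj (u i) (V i + x • A i + y • B i), ?_,
      inner ℝ (V i + x • A i + y • B i) (u i) + t * ‖U i‖, ?_⟩
    · rw [mem_convexHull_tri_iff]
      refine ⟨x, y, hx, hy, hxy, ?_⟩
      simp only [proj_add, proj_smul, add_sub_cancel_left]
    · have : U i = ‖U i‖ • u i := by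
        simp only [hu, smul_smul, mul_inv_cancel₀ (hn i).ne', one_smul]
      conv_lhs => rw [this]
      simp only [proj]
      module
  · apply Finset.sum_congr rfl
    intro i _
    simp only [proj_add, add_sub_cancel_left]
    rw [gramA_proj (hu1 i), hu]
    simp only [det3_smul_right, abs_mul, abs_inv, abs_norm]
    have := (hn i).ne'
    field_simp

theorem exists_root (k y z : ℝ) (hy : |y| ≤ z) :
    ∃ τ ρ : ℝ, |τ| ≤ 1 ∧ 0 ≤ ρ ∧ ρ = z + k * τ ∧ y = τ * z + k * (τ ^ 2 - 1) / 2 := by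
  have hz : 0 ≤ z := (abs_nonneg y).trans hy
  have hky : |k * y| ≤ |k| * z := by
    rw [abs_mul]; exact mul_le_mul_of_nonneg_left hy (abs_nonneg k)
  have hD : 0 ≤ z ^ 2 + k ^ 2 + 2 * k * y := by
    have := neg_abs_le (k * y)
    nlinarith [sq_nonneg (z - |k|), sq_abs k]
  set ρ := Real.sqrt (z ^ 2 + k ^ 2 + 2 * k * y) with hρ
  have hρ0 : 0 ≤ ρ := Real.sqrt_nonneg _
  have hρ2 : ρ ^ 2 = z ^ 2 + k ^ 2 + 2 * k * y := Real.sq_sqrt hD
  by_cases h0 : ρ + z = 0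
  · have hz0 : z = 0 := by linarith
    have hρ0' : ρ = 0 := by linarith
    have hy0 : y = 0 := abs_nonpos_iff.mp (hz0 ▸ hy)
    have hk0 : k = 0 := by
      rw [hρ0', hz0, hy0] at hρ2
      exact pow_eq_zero_iff (two_ne_zero) |>.mp (by linarith)
    exact ⟨0, 0, by simp, le_rfl, by simp [hz0], by simp [hy0, hk0]⟩
  have hpos : 0 < ρ + z := lt_of_le_of_ne (by linarith) (Ne.symm h0)
  have hτ : (k + 2 * y) / (ρ + z) * (ρ + z) = k + 2 * y := div_mul_cancel₀ _ h0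
  set τ := (k + 2 * y) / (ρ + z) with hτdef
  have h1 : ρ = z + k * τ := by
    apply mul_right_cancel₀ h0
    linear_combination hρ2 - k * hτ
  refine ⟨τ, ρ, ?_, hρ0, h1, ?_⟩
  · rw [hτdef, abs_div, abs_of_pos hpos, div_le_one hpos]
    have h2 : |k + 2 * y| - z ≤ ρ := by
      apply Real.le_sqrt_of_sq_le
      have h3 : (k + 2 * y) * y ≤ |k + 2 * y| * z := by
        calc (k + 2 * y) * y ≤ |(k + 2 * y) * y| := le_abs_self _
          _ = |k + 2 * y| * |y| := abs_mul _ _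
          _ ≤ |k + 2 * y| * z := mul_le_mul_of_nonneg_left hy (abs_nonneg _)
      nlinarith [sq_abs (k + 2 * y)]
    linarith
  · have : τ * (ρ + z) = k + 2 * y := hτ
    rw [h1] at this
    linear_combination (-1 / 2) * this

/-- The cut-off radius of the sweeps. -/
noncomputable def Rf (e t : ℝ) : ℝ := 1 / 2 + e ^ 2 * (t ^ 4 + t ^ 2) / 4 + 2 * e ^ 3

theorem abs_mul_le_one' {a b : ℝ} (h : |a| ≤ 1) (h' : |b| ≤ 1) : |a * b| ≤ 1 := by
  rw [abs_mul]; exact mul_le_one₀ h (abs_nonneg _) h'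

theorem abs_mul_le_mul' {a b A B : ℝ} (h : |a| ≤ A) (h' : |b| ≤ B) : |a * b| ≤ A * B := by
  rw [abs_mul]; exact mul_le_mul h h' (abs_nonneg _) ((abs_nonneg _).trans h)

theorem sq_le_one' {a : ℝ} (h : |a| ≤ 1) : a ^ 2 ≤ 1 := by
  rw [← sq_abs]; exact pow_le_one₀ (abs_nonneg _) h

theorem pow_four_le_one' {a : ℝ} (h : |a| ≤ 1) : a ^ 4 ≤ 1 := by
  have := sq_le_one' h
  nlinarith [sq_nonneg a]

theorem abs_sq_sub_one_le {a : ℝ} (h : |a| ≤ 1) : |a ^ 2 - 1| ≤ 1 := by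
  have := sq_le_one' h
  rw [abs_le]; constructor <;> linarith [sq_nonneg a]

theorem abs_sq_add_one_le {a : ℝ} (h : |a| ≤ 1) : |(a ^ 2 + 1) / 2| ≤ 1 := by
  have := sq_le_one' h
  rw [abs_le]; constructor <;> linarith [sq_nonneg a]

theorem cover_ineq (e x y z τ ρ σ ρ' : ℝ) (he0 : 0 < e) (he1 : e ≤ 1)
    (hx : |x| ≤ 1 - z) (hy : |y| ≤ z) (hτ : |τ| ≤ 1) (hσ : |σ| ≤ 1)
    (h1 : ρ = z + e * x * τ) (h2 : y = τ * z + e * x * (τ ^ 2 - 1) / 2)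
    (h3 : ρ' = (1 - z) + (-e) * y * σ) (h4 : x = σ * (1 - z) + (-e) * y * (σ ^ 2 - 1) / 2) :
    ρ ≤ Rf e τ ∨ ρ' ≤ Rf e σ := by
  by_contra hcon
  rw [not_or, not_le, not_le] at hcon
  obtain ⟨ha, hb⟩ := hcon
  have hz0 : 0 ≤ z := (abs_nonneg y).trans hy
  have hz1 : z ≤ 1 := by linarith [abs_nonneg x]
  have hx1 : |x| ≤ 1 := by linarith
  have hy1 : |y| ≤ 1 := by linarith
  have hτ2 := sq_le_one' hτ
  have hσ2 := sq_le_one' hσ
  have hτ4 := pow_four_le_one' hτ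
  have hσ4 := pow_four_le_one' hσ
  have he2 : 0 < e ^ 2 := by positivity
  have he3 : 0 < e ^ 3 := by positivity
  have hee : |e| ≤ e := (abs_of_pos he0).le
  obtain ⟨r, hr⟩ : ∃ r, r = e ^ 2 * (τ ^ 4 + τ ^ 2) / 4 := ⟨_, rfl⟩
  obtain ⟨r', hr'⟩ : ∃ r', r' = e ^ 2 * (σ ^ 4 + σ ^ 2) / 4 := ⟨_, rfl⟩
  have hr0 : 0 ≤ r := by rw [hr]; positivity
  have hr0' : 0 ≤ r' := by rw [hr']; positivity
  have hr1 : r ≤ e ^ 2 / 2 := by
    have := mul_le_mul_of_nonneg_left (show τ ^ 4 + τ ^ 2 ≤ 2 by linarith) he2.le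
    linarith
  have hr1' : r' ≤ e ^ 2 / 2 := by
    have := mul_le_mul_of_nonneg_left (show σ ^ 4 + σ ^ 2 ≤ 2 by linarith) he2.le
    linarith
  have ha' : r + 2 * e ^ 3 < ρ - 1 / 2 := by unfold Rf at ha; linarith
  have hb' : r' + 2 * e ^ 3 < ρ' - 1 / 2 := by unfold Rf at hb; linarith
  have hxτ := abs_le.mp (abs_mul_le_mul' hee (abs_mul_le_one' hx1 hτ))
  have hyσ := abs_le.mp (abs_mul_le_mul' hee (abs_mul_le_one' hy1 hσ))
  have hδ : |z - 1 / 2| ≤ e := by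
    rw [abs_le]
    constructor
    · linarith [hxτ.2]
    · linarith [hyσ.1]
  -- the error terms
  have hy1' : |y - τ / 2| ≤ 3 / 2 * e := by
    have e1 : y - τ / 2 = τ * (z - 1 / 2) + e * (x * (τ ^ 2 - 1)) / 2 := by
      linear_combination h2
    have e2 := abs_le.mp (abs_mul_le_mul' hτ hδ)
    have e3 := abs_le.mp (abs_mul_le_mul' hee (abs_mul_le_one' hx1 (abs_sq_sub_one_le hτ)))
    rw [abs_le, e1]
    constructor <;> linarith [e2.1, e2.2, e3.1, e3.2]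
  have hx1' : |x - σ / 2| ≤ 3 / 2 * e := by
    have e1 : x - σ / 2 = -(σ * (z - 1 / 2)) - e * (y * (σ ^ 2 - 1)) / 2 := by
      linear_combination h4
    have e2 := abs_le.mp (abs_mul_le_mul' hσ hδ)
    have e3 := abs_le.mp (abs_mul_le_mul' hee (abs_mul_le_one' hy1 (abs_sq_sub_one_le hσ)))
    rw [abs_le, e1]
    constructor <;> linarith [e2.1, e2.2, e3.1, e3.2]
  have hid : (ρ - 1 / 2) * (1 + e * (τ * σ)) + (ρ' - 1 / 2) * (1 - e * (τ * σ)) =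
      e ^ 2 * (τ ^ 2 * σ ^ 2 / 2 + (τ ^ 2 + σ ^ 2) / 4) +
        (e ^ 2 * ((y - τ / 2) * (τ * ((σ ^ 2 + 1) / 2))) +
        e ^ 2 * ((x - σ / 2) * (σ * ((τ ^ 2 + 1) / 2)))) := by
    rw [h1, h3]
    linear_combination (e * τ) * h4 - (e * σ) * h2
  have b1 := (abs_le.mp (abs_mul_le_mul' hy1' (abs_mul_le_one' hτ (abs_sq_add_one_le hσ)))).2
  have b2 := (abs_le.mp (abs_mul_le_mul' hx1' (abs_mul_le_one' hσ (abs_sq_add_one_le hτ)))).2
  have hw := abs_mul_le_mul' hee (abs_mul_le_one' hτ hσ)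
  obtain ⟨w, hwdef⟩ : ∃ w, w = e * (τ * σ) := ⟨_, rfl⟩
  rw [← hwdef] at hw hid
  have hw' := abs_le.mp hw
  have c1 : (r + 2 * e ^ 3) * (1 + w) ≤ (ρ - 1 / 2) * (1 + w) :=
    mul_le_mul_of_nonneg_right ha'.le (by linarith [hw'.1])
  have c2 : (r' + 2 * e ^ 3) * (1 - w) ≤ (ρ' - 1 / 2) * (1 - w) :=
    mul_le_mul_of_nonneg_right hb'.le (by linarith [hw'.2])
  have c3 := (abs_le.mp (abs_mul_le_mul' hw
    (show |r - r'| ≤ e ^ 2 / 2 from abs_le.mpr ⟨by linarith, by linarith⟩))).1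
  have c4 : e ^ 2 * (τ ^ 2 * σ ^ 2 / 2 + (τ ^ 2 + σ ^ 2) / 4) ≤ r + r' := by
    have := mul_nonneg he2.le (sq_nonneg (τ ^ 2 - σ ^ 2))
    rw [hr, hr']
    linarith
  have c5 := mul_le_mul_of_nonneg_left b1 he2.le
  have c6 := mul_le_mul_of_nonneg_left b2 he2.le
  linarith

theorem Rf_le (e c τ d : ℝ) (hc : |c| ≤ 1) (hτ : |τ| ≤ 1) (h1 : c ≤ τ) (h2 : τ ≤ c + d) :
    Rf e τ ≤ Rf e c + 3 / 2 * e ^ 2 * d := by
  unfold Rf
  have hc2 : c ^ 2 ≤ 1 := by rw [← sq_abs]; exact pow_le_one₀ (abs_nonneg _) hc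
  have hτ2 : τ ^ 2 ≤ 1 := by rw [← sq_abs]; exact pow_le_one₀ (abs_nonneg _) hτ
  rw [abs_le] at hc hτ
  have h3 : (τ + c) * (τ ^ 2 + c ^ 2 + 1) ≤ 6 := by
    have : (τ + c) * (τ ^ 2 + c ^ 2 + 1) ≤ 2 * (τ ^ 2 + c ^ 2 + 1) :=
      mul_le_mul_of_nonneg_right (by linarith [hc.2, hτ.2]) (by positivity)
    linarith
  have h4 : τ ^ 4 + τ ^ 2 - (c ^ 4 + c ^ 2) ≤ 6 * d := by
    have : τ ^ 4 + τ ^ 2 - (c ^ 4 + c ^ 2) = (τ - c) * ((τ + c) * (τ ^ 2 + c ^ 2 + 1)) := by ring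
    rw [this]
    nlinarith
  nlinarith [sq_nonneg e]

theorem piece (g e d c R x y z τ ρ : ℝ) (hg : |g| ≤ e) (hx : |x| ≤ 1) (hd : 0 < d)
    (h1 : c ≤ τ) (h2 : τ ≤ c + d) (hρ0 : 0 ≤ ρ) (hρ : ρ ≤ R) (hR : 0 < R)
    (hz : ρ = z + g * x * τ) (hy : y = τ * z + g * x * (τ ^ 2 - 1) / 2) :
    ∃ α β : ℝ, 0 ≤ α ∧ 0 ≤ β ∧ α + β ≤ 1 ∧
      y = (-(e * d * c) - e * d ^ 2 / 2) + α * ((R + 2 * e * d) * c) +
        β * ((R + 2 * e * d) * (c + d)) + x * (-(g * (c ^ 2 + 1) / 2)) ∧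
      z = -(e * d) + α * (R + 2 * e * d) + β * (R + 2 * e * d) + x * (-(g * c)) := by
  have he : 0 ≤ e := (abs_nonneg g).trans hg
  set ℓ := R + 2 * e * d with hℓ
  have hℓ0 : 0 < ℓ := by positivity
  set k := g * x with hk
  have hk1 : |k| ≤ e := by
    rw [hk, abs_mul]; nlinarith [abs_nonneg g, abs_nonneg x]
  rw [abs_le] at hk1
  set h := τ - c with hh
  have hh0 : 0 ≤ h := by linarith
  have hhd : h ≤ d := by linarith
  set ξ := ρ - k * h + e * d with hξ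
  set η := ρ * h - k * h ^ 2 / 2 + e * d ^ 2 / 2 with hη
  have hh2 : h ^ 2 ≤ d ^ 2 := pow_le_pow_left₀ hh0 hhd 2
  have hη0 : 0 ≤ η := by
    have : k * h ^ 2 ≤ e * d ^ 2 :=
      le_trans (mul_le_mul_of_nonneg_right hk1.2 (by positivity))
        (mul_le_mul_of_nonneg_left hh2 he)
    have := mul_nonneg hρ0 hh0
    rw [hη]; linarith
  have hηξ : η ≤ d * ξ := by
    have e1 : d * ξ - η = ρ * (d - h) + (e - k) * (h * (d - h / 2)) + e * (d - h) ^ 2 / 2 := by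
      rw [hξ, hη]; ring
    have := mul_nonneg hρ0 (sub_nonneg.mpr hhd)
    have := mul_nonneg (sub_nonneg.mpr hk1.2) (mul_nonneg hh0 (show 0 ≤ d - h / 2 by linarith))
    have := mul_nonneg he (sq_nonneg (d - h))
    linarith
  have hξℓ : ξ ≤ ℓ := by
    have : -(k * h) ≤ e * d := by
      have h3 := mul_le_mul_of_nonneg_right hk1.1 hh0
      have h4 := mul_le_mul_of_nonneg_left hhd he
      linarith
    rw [hξ, hℓ]; linarith
  refine ⟨(d * ξ - η) / (ℓ * d), η / (ℓ * d), div_nonneg (by linarith) (by positivity),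
    div_nonneg hη0 (by positivity), ?_, ?_, ?_⟩
  · rw [← add_div, div_le_one (by positivity)]
    have := mul_le_mul_of_nonneg_left hξℓ hd.le
    linarith
  · have hτ : τ = c + h := by rw [hh]; ring
    have hz' : z = ρ - k * τ := by linarith
    field_simp
    rw [hy, hz', hξ, hη, hτ, hk]
    ring
  · have hτ : τ = c + h := by rw [hh]; ring
    have hz' : z = ρ - k * τ := by linarith
    field_simp
    rw [hz', hξ, hτ, hk]
    ring

theorem exists_piece_index (N : ℕ) (d τ : ℝ) (hd : 0 < d) (hN : (N : ℝ) * d = 2) (hτ : |τ| ≤ 1) :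
    ∃ i : Fin N, -1 + (i : ℝ) * d ≤ τ ∧ τ ≤ -1 + (i : ℝ) * d + d := by
  rw [abs_le] at hτ
  have hN0 : 0 < N := by
    rcases Nat.eq_zero_or_pos N with h | h
    · simp [h] at hN
    · exact h
  have h0 : 0 ≤ (τ + 1) / d := div_nonneg (by linarith) hd.le
  by_cases h : ⌊(τ + 1) / d⌋₊ < N
  · refine ⟨⟨_, h⟩, ?_, ?_⟩
    · have := Nat.floor_le h0
      rw [le_div_iff₀ hd] at this
      simp only; linarith
    · have := (Nat.lt_floor_add_one ((τ + 1) / d)).le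
      rw [div_le_iff₀ hd] at this
      simp only; linarith
  · push Not at h
    have h1 : (N : ℝ) ≤ (τ + 1) / d := (Nat.le_floor_iff h0).mp h
    rw [le_div_iff₀ hd] at h1
    refine ⟨⟨N - 1, by omega⟩, ?_, ?_⟩
    · simp only [Nat.cast_pred hN0]; linarith
    · simp only [Nat.cast_pred hN0]; linarith

theorem cost_pointwise (e d c : ℝ) (he : e = 1 / 1000) (hd : d = 1 / 1000000) (hc : |c| ≤ 1) :
    (Rf e c + 3 / 2 * e ^ 2 * d + 2 * e * d) ^ 2 /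
        Real.sqrt (1 + e ^ 2 * ((c ^ 2 + 1) ^ 2 / 4 + 2 * c ^ 2)) ≤
      1 / 4 + e ^ 2 / 4 * (c ^ 4 - (c ^ 2 + 1) ^ 2 / 8) + 402 / 10 ^ 11 := by
  have hc2 : c ^ 2 ≤ 1 := by rw [← sq_abs]; exact pow_le_one₀ (abs_nonneg _) hc
  have hc4 : c ^ 4 ≤ 1 := by nlinarith [sq_nonneg c]
  set W := e ^ 2 * ((c ^ 2 + 1) ^ 2 / 4 + 2 * c ^ 2) with hW
  have hW0 : 0 ≤ W := by positivity
  have hW1 : W ≤ 3 / 10 ^ 6 := by
    rw [hW, he]; linarith
  set m := e ^ 2 * (c ^ 4 + c ^ 2) / 4 + (2 * e ^ 3 + 3 / 2 * e ^ 2 * d + 2 * e * d) with hm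
  have hℓ : Rf e c + 3 / 2 * e ^ 2 * d + 2 * e * d = 1 / 2 + m := by unfold Rf; rw [hm]; ring
  have hμ : 2 * e ^ 3 + 3 / 2 * e ^ 2 * d + 2 * e * d = 40015 / 10 ^ 13 := by
    rw [he, hd]; norm_num
  have hm0 : 0 ≤ m := by rw [hm, hμ]; positivity
  have hm1 : m ≤ 1 / 10 ^ 6 := by rw [hm, hμ, he]; linarith
  have hs : 0 < Real.sqrt (1 + W) := Real.sqrt_pos.mpr (by linarith)
  have hq : 0 < 1 - W / 2 + W ^ 2 := by linarith [sq_nonneg W]
  have h1 : 1 ≤ (1 - W / 2 + W ^ 2) * Real.sqrt (1 + W) := by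
    rw [← Real.sqrt_sq hq.le, ← Real.sqrt_mul (sq_nonneg _)]
    apply Real.one_le_sqrt.mpr
    have : (1 - W / 2 + W ^ 2) ^ 2 * (1 + W) = 1 + (5 / 4 * W ^ 2 + 5 / 4 * W ^ 3 + W ^ 5) := by
      ring
    rw [this]
    have : 0 ≤ 5 / 4 * W ^ 2 + 5 / 4 * W ^ 3 + W ^ 5 := by positivity
    linarith
  have h2 : (1 / 2 + m) ^ 2 / Real.sqrt (1 + W) ≤ (1 / 2 + m) ^ 2 * (1 - W / 2 + W ^ 2) := by
    rw [div_le_iff₀ hs]
    have := mul_le_mul_of_nonneg_left h1 (sq_nonneg (1 / 2 + m))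
    linarith
  rw [hℓ]
  refine h2.trans ?_
  have h3 : e ^ 2 / 4 * (c ^ 4 - (c ^ 2 + 1) ^ 2 / 8) = m - 40015 / 10 ^ 13 - W / 8 := by
    rw [hm, hμ, hW]; ring
  rw [h3]
  have h4 : W ^ 2 ≤ (3 / 10 ^ 6) ^ 2 := pow_le_pow_left₀ hW0 hW1 2
  have h5 : m ^ 2 ≤ (1 / 10 ^ 6) ^ 2 := pow_le_pow_left₀ hm0 hm1 2
  have h6 : (1 / 2 + m) ^ 2 ≤ 1 := by linarith
  have h7 := mul_le_mul_of_nonneg_right h6 (sq_nonneg W)
  have h8 : 0 ≤ (m + m ^ 2) * W := by positivity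
  linarith

theorem sum_f_le (N : ℕ) (d : ℝ) (hd : 0 < d) (hd1 : d ≤ 1) (hN : (N : ℝ) * d = 2) :
    ∑ i : Fin N, d * ((-1 + (i : ℝ) * d) ^ 4 - ((-1 + (i : ℝ) * d) ^ 2 + 1) ^ 2 / 8) ≤
      -1 / 15 + 6 * d := by
  set F : ℝ → ℝ := fun t => (7 * t ^ 5 / 5 - 2 * t ^ 3 / 3 - t) / 8 with hF
  have key : ∀ c : ℝ, |c| ≤ 1 →
      d * (c ^ 4 - (c ^ 2 + 1) ^ 2 / 8) ≤ F (c + d) - F c + 3 * d ^ 2 := by
    intro c hc
    have e1 : F (c + d) - F c + 3 * d ^ 2 - d * (c ^ 4 - (c ^ 2 + 1) ^ 2 / 8) =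
        d ^ 2 / 8 * (14 * c ^ 3 + 14 * c ^ 2 * d + 7 * c * d ^ 2 + 7 / 5 * d ^ 3 - 2 * c
          - 2 / 3 * d + 24) := by
      simp only [hF]; ring
    have hc2 : c ^ 2 ≤ 1 := by rw [← sq_abs]; exact pow_le_one₀ (abs_nonneg _) hc
    rw [abs_le] at hc
    have h3 : -1 ≤ c ^ 3 := by nlinarith [sq_nonneg c]
    have hd2 : d ^ 2 ≤ 1 := by nlinarith
    have h4 : -1 ≤ c * d ^ 2 := by nlinarith [sq_nonneg d]
    have h5 : 0 ≤ c ^ 2 * d := by positivity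
    have h6 : 0 ≤ d ^ 3 := by positivity
    have : 0 ≤ d ^ 2 / 8 * (14 * c ^ 3 + 14 * c ^ 2 * d + 7 * c * d ^ 2 + 7 / 5 * d ^ 3 - 2 * c
          - 2 / 3 * d + 24) := mul_nonneg (by positivity) (by linarith)
    linarith
  rw [Fin.sum_univ_eq_sum_range (fun i : ℕ =>
    d * ((-1 + (i : ℝ) * d) ^ 4 - ((-1 + (i : ℝ) * d) ^ 2 + 1) ^ 2 / 8)) N]
  have h1 : ∑ i ∈ Finset.range N, d * ((-1 + (i : ℝ) * d) ^ 4 - ((-1 + (i : ℝ) * d) ^ 2 + 1) ^ 2 / 8)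
      ≤ ∑ i ∈ Finset.range N, ((F (-1 + ((i + 1 : ℕ) : ℝ) * d) - F (-1 + (i : ℝ) * d))
        + 3 * d ^ 2) := by
    apply Finset.sum_le_sum
    intro i hi
    have hi' : (i : ℝ) ≤ N := by exact_mod_cast (Finset.mem_range.mp hi).le
    have := key (-1 + (i : ℝ) * d) (by
      rw [abs_le]
      have : 0 ≤ (i : ℝ) * d := by positivity
      constructor <;> nlinarith)
    rw [show -1 + ((i + 1 : ℕ) : ℝ) * d = -1 + (i : ℝ) * d + d by push_cast; ring]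
    exact this
  refine h1.trans (le_of_eq ?_)
  rw [Finset.sum_add_distrib, Finset.sum_range_sub (fun i : ℕ => F (-1 + (i : ℝ) * d))]
  simp only [Finset.sum_const, Finset.card_range, nsmul_eq_mul, hN, hF]
  norm_num
  linear_combination 3 * d * hN

end Crest.Agent.R211
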