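import Crest.Agent.R211.Area

/-!
Lower bound for the area of the orthogonal projections of the regular tetrahedron.
-/

set_option autoImplicit false
open MeasureTheory
open scoped ENNReal

namespace Crest.Agent.R211

theorem det3_proj (A B v : E3) : det3 A (proj v B) v = det3 A B v := by
  simp only [det3, proj, PiLp.sub_apply, PiLp.smul_apply, smul_eq_mul]; ring

theorem det3_self (A v : E3) : det3 A A v = 0 := by
  simp only [det3]; ring

theorem det3_comb (A B C v : E3) (x y : ℝ) :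
    det3 A (x • B + y • C) v = x * det3 A B v + y * det3 A C v := by
  simp only [det3, PiLp.add_apply, PiLp.smul_apply, smul_eq_mul]; ring

theorem det3_sub (A B C v : E3) : det3 A (B - C) v = det3 A B v - det3 A C v := by
  simp only [det3, PiLp.sub_apply]; ring

theorem tri_proj_subset {K : Set E3} (hK : Convex ℝ K) (v : E3) {P Q R : E3} (hP : P ∈ K)
    (hQ : Q ∈ K) (hR : R ∈ K) :
    convexHull ℝ ({proj v P, proj v Q, proj v R} : Set E3) ⊆ proj v '' K := by
  intro z hz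
  obtain ⟨x, y, hx, hy, hxy, rfl⟩ := (mem_convexHull_tri_iff _ _ _ _).mp hz
  refine ⟨P + x • (Q - P) + y • (R - P), mem_convexHull_tri hK hP hQ hR hx hy hxy, ?_⟩
  simp only [proj_add, proj_smul, proj_sub]

theorem area_tri_proj {v : E3} (hv : ‖v‖ = 1) (P Q R : E3) :
    μHE[2] (convexHull ℝ ({proj v P, proj v Q, proj v R} : Set E3)) =
      ENNReal.ofReal (|det3 (Q - P) (R - P) v| / 2) := by
  rw [area_triangle, ← proj_sub, ← proj_sub, gramA_proj hv]

theorem area_proj_ge_tri {K : Set E3} (hK : Convex ℝ K) {v : E3} (hv : ‖v‖ = 1) {P Q R : E3}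
    (hP : P ∈ K) (hQ : Q ∈ K) (hR : R ∈ K) :
    ENNReal.ofReal (|det3 (Q - P) (R - P) v| / 2) ≤ μHE[2] (proj v '' K) := by
  rw [← area_tri_proj hv]
  exact measure_mono (tri_proj_subset hK v hP hQ hR)

theorem area_proj_ge_aux {K : Set E3} (hK : Convex ℝ K) {v : E3} (hv : ‖v‖ = 1) {P Q R R' : E3}
    (hP : P ∈ K) (hQ : Q ∈ K) (hR : R ∈ K) (hR' : R' ∈ K)
    (h1 : 0 < det3 (Q - P) (R - P) v) (h2 : det3 (Q - P) (R' - P) v < 0) :
    ENNReal.ofReal ((det3 (Q - P) (R - P) v - det3 (Q - P) (R' - P) v) / 2) ≤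
      μHE[2] (proj v '' K) := by
  set T1 := convexHull ℝ ({proj v P, proj v Q, proj v R} : Set E3) with hT1
  set T2 := convexHull ℝ ({proj v P, proj v Q, proj v R'} : Set E3) with hT2
  have hm : MeasurableSet T2 :=
    (Set.Finite.isCompact_convexHull ℝ (Set.toFinite _)).isClosed.measurableSet
  have hu := measure_union_add_inter (μ := μHE[2]) T1 hm
  have hi : μHE[2] (T1 ∩ T2) = 0 := by
    apply measure_mono_null _ (area_line (proj v P) (proj v Q - proj v P))
    rintro z ⟨hz1, hz2⟩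
    obtain ⟨x, y, hx, hy, hxy, e1⟩ := (mem_convexHull_tri_iff _ _ _ _).mp hz1
    obtain ⟨x', y', hx', hy', hxy', e2⟩ := (mem_convexHull_tri_iff _ _ _ _).mp hz2
    have e3 : x • (proj v Q - proj v P) + y • (proj v R - proj v P) =
        x' • (proj v Q - proj v P) + y' • (proj v R' - proj v P) := by
      have := e1.symm.trans e2
      rw [add_assoc, add_assoc] at this
      exact add_left_cancel this
    have e4 := congrArg (fun X => det3 (Q - P) X v) e3
    simp only [det3_comb, ← proj_sub, det3_proj, det3_self] at e4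
    have hy0 : y = 0 := by
      by_contra hne
      have : 0 < y := lt_of_le_of_ne hy (Ne.symm hne)
      nlinarith [mul_pos this h1, mul_nonneg hy' (neg_nonneg.mpr h2.le)]
    exact ⟨x, by rw [e1, hy0, zero_smul, add_zero]⟩
  rw [hi, add_zero, hT1, hT2, area_tri_proj hv, area_tri_proj hv, abs_of_pos h1, abs_of_neg h2,
    ← ENNReal.ofReal_add (by linarith) (by linarith)] at hu
  have e : (det3 (Q - P) (R - P) v - det3 (Q - P) (R' - P) v) / 2 =
      det3 (Q - P) (R - P) v / 2 + -det3 (Q - P) (R' - P) v / 2 := by ring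
  rw [e, ← hu]
  exact measure_mono (Set.union_subset (tri_proj_subset hK v hP hQ hR)
    (tri_proj_subset hK v hP hQ hR'))

theorem area_proj_ge_quad {K : Set E3} (hK : Convex ℝ K) {v : E3} (hv : ‖v‖ = 1) {P Q R R' : E3}
    (hP : P ∈ K) (hQ : Q ∈ K) (hR : R ∈ K) (hR' : R' ∈ K) :
    ENNReal.ofReal (|det3 (Q - P) (R - R') v| / 2) ≤ μHE[2] (proj v '' K) := by
  have e : det3 (Q - P) (R - R') v = det3 (Q - P) (R - P) v - det3 (Q - P) (R' - P) v := by
    rw [← det3_sub]; congr 1; abel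
  rw [e]
  set D1 := det3 (Q - P) (R - P) v with hD1
  set D2 := det3 (Q - P) (R' - P) v with hD2
  by_cases h1 : 0 < D1 ∧ D2 < 0
  · rw [abs_of_pos (by linarith [h1.1, h1.2])]
    exact area_proj_ge_aux hK hv hP hQ hR hR' h1.1 h1.2
  by_cases h2 : 0 < D2 ∧ D1 < 0
  · rw [abs_sub_comm, abs_of_pos (by linarith [h2.1, h2.2])]
    exact area_proj_ge_aux hK hv hP hQ hR' hR h2.1 h2.2
  have t1 := area_proj_ge_tri hK hv hP hQ hR
  have t2 := area_proj_ge_tri hK hv hP hQ hR'
  rw [← hD1] at t1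
  rw [← hD2] at t2
  have : |D1 - D2| ≤ |D1| ∨ |D1 - D2| ≤ |D2| := by
    rw [not_and_or, not_lt, not_lt] at h1 h2
    rcases h1 with h1 | h1 <;> rcases h2 with h2 | h2
    · rw [abs_of_nonpos h1, abs_of_nonpos h2]
      rcases le_total D1 D2 with h | h
      · left; rw [abs_of_nonpos (by linarith)]; linarith
      · right; rw [abs_of_nonneg (by linarith)]; linarith
    · right; rw [show D1 = 0 by linarith]; simp
    · left; rw [show D2 = 0 by linarith]; simp
    · rw [abs_of_nonneg h1, abs_of_nonneg h2]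
      rcases le_total D1 D2 with h | h
      · right; rw [abs_of_nonpos (by linarith)]; linarith
      · left; rw [abs_of_nonneg (by linarith)]; linarith
  rcases this with h | h
  · exact le_trans (ENNReal.ofReal_le_ofReal (by linarith)) t1
  · exact le_trans (ENNReal.ofReal_le_ofReal (by linarith)) t2

/-- The regular tetrahedron with vertices `(±1,0,0)`, `(0,±1,√2)`. -/
def Ktet : Set E3 :=
  convexHull ℝ {!₂[1, 0, 0], !₂[-1, 0, 0], !₂[0, 1, Real.sqrt 2], !₂[0, -1, Real.sqrt 2]}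

theorem real_core (x y z s M : ℝ) (hs : s ^ 2 = 2) (hs0 : 0 < s) (h : x ^ 2 + y ^ 2 + z ^ 2 = 1)
    (h1 : 2 * |z| ≤ M) (h2 : s * |x + y| ≤ M) (h3 : s * |x - y| ≤ M)
    (h4 : |s * y - z| ≤ M) (h5 : |s * y + z| ≤ M) (h6 : |s * x - z| ≤ M) (h7 : |s * x + z| ≤ M) :
    s ≤ M := by
  -- cube-frame coordinates
  set a := |x + y| with ha
  set b := |x - y| with hb
  set c := |z| with hc
  have ha0 : 0 ≤ a := abs_nonneg _
  have hb0 : 0 ≤ b := abs_nonneg _
  have hc0 : 0 ≤ c := abs_nonneg _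
  have ha2 : a ^ 2 = (x + y) ^ 2 := sq_abs _
  have hb2 : b ^ 2 = (x - y) ^ 2 := sq_abs _
  have hc2 : c ^ 2 = z ^ 2 := sq_abs _
  have hM0 : 0 ≤ M := by linarith
  have hsum : s * (a + b) / 2 + c ≤ M := by
    rw [abs_le] at h4 h5 h6 h7
    rcases abs_cases (x + y) with ⟨e1, _⟩ | ⟨e1, _⟩ <;>
    rcases abs_cases (x - y) with ⟨e2, _⟩ | ⟨e2, _⟩ <;>
    rcases abs_cases z with ⟨e3, _⟩ | ⟨e3, _⟩ <;>
    · rw [ha, hb, hc, e1, e2, e3]; linarith [h4.1, h4.2, h5.1, h5.2, h6.1, h6.2, h7.1, h7.2]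
  have key : 2 ≤ M ^ 2 := by
    have k1 : s * a * (s * a) ≤ M * (s * a) := mul_le_mul_of_nonneg_right h2 (by positivity)
    have k2 : s * b * (s * b) ≤ M * (s * b) := mul_le_mul_of_nonneg_right h3 (by positivity)
    have k3 : 2 * c * c ≤ M * c := mul_le_mul_of_nonneg_right h1 hc0
    have k4 : M * (s * (a + b) / 2 + c) ≤ M * M := mul_le_mul_of_nonneg_left hsum hM0
    nlinarith
  by_contra hlt
  push Not at hlt
  nlinarith

theorem convex_Ktet : Convex ℝ Ktet := convex_convexHull ℝ _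

theorem isCompact_Ktet : IsCompact Ktet := Set.Finite.isCompact_convexHull ℝ (Set.toFinite _)

theorem continuous_proj (v : E3) : Continuous (proj v) := by
  unfold proj; fun_prop

theorem area_proj_lt_top {K : Set E3} (hK : IsCompact K) {v : E3} (hv : ‖v‖ = 1) :
    μHE[2] (proj v '' K) < ⊤ := by
  apply area_lt_top_of_bounded (u := v) (by intro h; simp [h] at hv)
    (hK.image (continuous_proj v)).isBounded
  rintro _ ⟨y, _, rfl⟩
  exact proj_inner hv y

theorem area_proj_Ktet_ge_toReal {v : E3} (hv : ‖v‖ = 1) :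
    Real.sqrt 2 ≤ (μHE[2] (proj v '' Ktet)).toReal := by
  have hfin := (area_proj_lt_top isCompact_Ktet hv).ne
  have h0 : (!₂[1, 0, 0] : E3) ∈ Ktet := subset_convexHull ℝ _ (by simp)
  have h1 : (!₂[-1, 0, 0] : E3) ∈ Ktet := subset_convexHull ℝ _ (by simp)
  have h2 : (!₂[0, 1, Real.sqrt 2] : E3) ∈ Ktet := subset_convexHull ℝ _ (by simp)
  have h3 : (!₂[0, -1, Real.sqrt 2] : E3) ∈ Ktet := subset_convexHull ℝ _ (by simp)
  have q : ∀ {P Q R R' : E3}, P ∈ Ktet → Q ∈ Ktet → R ∈ Ktet → R' ∈ Ktet →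
      |det3 (Q - P) (R - R') v| / 2 ≤ (μHE[2] (proj v '' Ktet)).toReal := by
    intro P Q R R' hP hQ hR hR'
    exact (ENNReal.ofReal_le_iff_le_toReal hfin).mp
      (area_proj_ge_quad convex_Ktet hv hP hQ hR hR')
  have hv2 : v 0 ^ 2 + v 1 ^ 2 + v 2 ^ 2 = 1 := by rw [← norm_sq_E3, hv]; norm_num
  have hs0 : 0 < Real.sqrt 2 := by positivity
  have hs : Real.sqrt 2 ^ 2 = 2 := Real.sq_sqrt (by norm_num)
  set s := Real.sqrt 2 with hsdef
  set M := (μHE[2] (proj v '' Ktet)).toReal with hM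
  have conv : ∀ {D E k : ℝ}, 0 ≤ k → D = 2 * k * E ∨ D = -(2 * k * E) → |D| / 2 ≤ M →
      k * |E| ≤ M := by
    intro D E k hk hD h
    have : |D| = 2 * k * |E| := by
      rcases hD with hD | hD
      · rw [hD, abs_mul, abs_of_nonneg (by positivity)]
      · rw [hD, abs_neg, abs_mul, abs_of_nonneg (by positivity)]
    linarith
  refine real_core (v 0) (v 1) (v 2) s M hs hs0 hv2 ?_ ?_ ?_ ?_ ?_ ?_ ?_
  · refine conv (by norm_num) ?_ (q h1 h0 h2 h3)
    left; simp [det3]; ring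
  · refine conv hs0.le ?_ (q h2 h0 h1 h3)
    left; simp [det3]; ring
  · refine conv hs0.le ?_ (q h3 h0 h1 h2)
    right; simp [det3]; ring
  · have := conv (k := 1) (E := s * v 1 - v 2) (by norm_num) ?_ (q h0 h1 h2 h0)
    · simpa using this
    left; simp [det3]; ring
  · have := conv (k := 1) (E := s * v 1 + v 2) (by norm_num) ?_ (q h0 h1 h3 h0)
    · simpa using this
    left; simp [det3]; ring
  · have := conv (k := 1) (E := s * v 0 - v 2) (by norm_num) ?_ (q h2 h3 h1 h2)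
    · simpa using this
    left; simp [det3]; ring
  · have := conv (k := 1) (E := s * v 0 + v 2) (by norm_num) ?_ (q h2 h3 h0 h2)
    · simpa using this
    left; simp [det3]; ring

theorem area_proj_Ktet_ge {v : E3} (hv : ‖v‖ = 1) :
    ENNReal.ofReal (Real.sqrt 2) ≤ μHE[2] (proj v '' Ktet) :=
  (ENNReal.ofReal_le_iff_le_toReal (area_proj_lt_top isCompact_Ktet hv).ne).mpr
    (area_proj_Ktet_ge_toReal hv)

theorem mem_Ktet {P : E3} (hP : P ∈ Ktet) :
    ∃ z : ℝ, P 2 = Real.sqrt 2 * z ∧ |P 0| ≤ 1 - z ∧ |P 1| ≤ z := by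
  have hc : Convex ℝ {P : E3 | ∃ z : ℝ, P 2 = Real.sqrt 2 * z ∧ |P 0| ≤ 1 - z ∧ |P 1| ≤ z} := by
    rintro X ⟨z, h1, h2, h3⟩ Y ⟨z', h1', h2', h3'⟩ a b ha hb hab
    refine ⟨a * z + b * z', ?_, ?_, ?_⟩
    · simp [h1, h1']; ring
    · simp only [PiLp.add_apply, PiLp.smul_apply, smul_eq_mul]
      rw [abs_le] at *
      constructor <;> nlinarith [h2.1, h2.2, h2'.1, h2'.2]
    · simp only [PiLp.add_apply, PiLp.smul_apply, smul_eq_mul]
      rw [abs_le] at *
      constructor <;> nlinarith [h3.1, h3.2, h3'.1, h3'.2]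
  refine convexHull_min ?_ hc hP
  intro X hX
  rcases hX with rfl | rfl | rfl | rfl
  · exact ⟨0, by simp⟩
  · exact ⟨0, by simp⟩
  · exact ⟨1, by simp⟩
  · exact ⟨1, by simp⟩

theorem area_proj_Ktet_e0 :
    μHE[2] (proj (!₂[1, 0, 0] : E3) '' Ktet) = ENNReal.ofReal (Real.sqrt 2) := by
  have hv : ‖(!₂[1, 0, 0] : E3)‖ = 1 := by
    rw [← sq_eq_sq₀ (norm_nonneg _) zero_le_one, norm_sq_E3]; simp
  apply le_antisymm _ (area_proj_Ktet_ge hv)
  have hsub : proj (!₂[1, 0, 0] : E3) '' Ktet ⊆ convexHull ℝ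
      ({0, !₂[0, 1, Real.sqrt 2], !₂[0, -1, Real.sqrt 2]} : Set E3) := by
    rintro _ ⟨P, hP, rfl⟩
    obtain ⟨z, h1, h2, h3⟩ := mem_Ktet hP
    rw [mem_convexHull_tri_iff]
    rw [abs_le] at h3
    refine ⟨(z + P 1) / 2, (z - P 1) / 2, by linarith, by linarith,
      by linarith [abs_nonneg (P 0)], ?_⟩
    ext i
    fin_cases i <;> simp [proj, inner_E3, h1] <;> ring
  refine le_trans (measure_mono hsub) ?_
  rw [area_triangle]
  apply ENNReal.ofReal_le_ofReal
  have hs : Real.sqrt 2 ^ 2 = 2 := Real.sq_sqrt (by norm_num)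
  have : gramA ((!₂[0, 1, Real.sqrt 2] : E3) - 0) (!₂[0, -1, Real.sqrt 2] - 0) = 2 * Real.sqrt 2 := by
    rw [← sq_eq_sq₀ (gramA_nonneg _ _) (by positivity), gramA_sq, norm_sq_E3, norm_sq_E3, inner_E3]
    simp
    nlinarith
  rw [this]; linarith

end Crest.Agent.R211
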