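import Mathlib

/-! Row 211, part C: lattice cover lemma, zero-diagonal orthonormal basis, lattice Riemann sums. -/

set_option autoImplicit false
open MeasureTheory Set
open scoped ENNReal

namespace Crest.Agent.R211C

abbrev E2 := EuclideanSpace ℝ (Fin 2)

theorem int_fix (H : ℤ → ℤ) (hm : Monotone H) (N₁ N₂ : ℤ) (h12 : N₁ ≤ N₂) (h1 : N₁ ≤ H N₁)
    (h2 : H N₂ ≤ N₂) : ∃ i, H i = i := by
  obtain ⟨lb, hlb, hmin⟩ := Int.exists_least_of_bdd (P := fun i => N₁ ≤ i ∧ H i ≤ i)
    ⟨N₁, fun z hz => hz.1⟩ ⟨N₂, h12, h2⟩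
  refine ⟨lb, le_antisymm hlb.2 (hmin _ ⟨h1.trans (hm hlb.1), hm hlb.2⟩)⟩

theorem lattice_cover (u v x y : ℝ) (h0 : 0 ≤ u * v) (h1 : u * v < 1) :
    ∃ i j : ℤ, |x - (i + u * j)| ≤ 1 / 2 ∧ |y - (j + v * i)| ≤ 1 / 2 := by
  set G : ℤ → ℤ := fun i => ⌊y - v * i + 1 / 2⌋ with hG
  set H : ℤ → ℤ := fun i => ⌊x - u * G i + 1 / 2⌋ with hH
  have hGb : ∀ i, |y - (G i + v * i)| ≤ 1 / 2 := by
    intro i
    have a1 := Int.floor_le (y - v * i + 1 / 2)
    have a2 := Int.lt_floor_add_one (y - v * i + 1 / 2)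
    rw [abs_le]; simp only [hG]; constructor <;> linarith
  have hHb : ∀ i, |x - (H i + u * G i)| ≤ 1 / 2 := by
    intro i
    have a1 := Int.floor_le (x - u * G i + 1 / 2)
    have a2 := Int.lt_floor_add_one (x - u * G i + 1 / 2)
    rw [abs_le]; simp only [hH]; constructor <;> linarith
  have hm : Monotone H := by
    intro i i' hii
    have hii' : (i : ℝ) ≤ i' := by exact_mod_cast hii
    apply Int.floor_mono
    have : u * G i' ≤ u * G i := by
      rcases mul_nonneg_iff.mp h0 with ⟨hu, hv⟩ | ⟨hu, hv⟩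
      · apply mul_le_mul_of_nonneg_left _ hu
        have : G i' ≤ G i := Int.floor_mono (by nlinarith)
        exact_mod_cast this
      · apply mul_le_mul_of_nonpos_left _ hu
        have : G i ≤ G i' := Int.floor_mono (by nlinarith)
        exact_mod_cast this
    linarith
  have key : ∀ i : ℤ, |(H i : ℝ) - (x - u * y + u * v * i)| ≤ (|u| + 1) / 2 := by
    intro i
    have e1 := hGb i
    have e2 := hHb i
    have : (H i : ℝ) - (x - u * y + u * v * i)
        = u * (y - (G i + v * i)) - (x - (H i + u * G i)) := by ring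
    rw [this]
    calc |u * (y - (G i + v * i)) - (x - (H i + u * G i))|
        ≤ |u * (y - (G i + v * i))| + |x - (H i + u * G i)| := abs_sub _ _
      _ ≤ |u| * (1 / 2) + 1 / 2 := by
        rw [abs_mul]; gcongr
      _ = (|u| + 1) / 2 := by ring
  obtain ⟨N, hN⟩ := exists_nat_ge ((|x - u * y| + (|u| + 1) / 2) / (1 - u * v))
  have hpos : 0 < 1 - u * v := by linarith
  rw [div_le_iff₀ hpos] at hN
  have hc1 := le_abs_self (x - u * y)
  have hc2 := neg_abs_le (x - u * y)
  obtain ⟨i, hi⟩ := int_fix H hm (-(N : ℤ)) N (by omega) (by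
      have := abs_le.mp (key (-(N : ℤ)))
      have h3 : ((-(N : ℤ) : ℤ) : ℝ) ≤ H (-(N : ℤ)) := by
        push_cast at this ⊢
        nlinarith [this.1]
      exact_mod_cast h3) (by
      have := abs_le.mp (key (N : ℤ))
      have h3 : (H (N : ℤ) : ℝ) ≤ ((N : ℤ) : ℝ) := by
        push_cast at this ⊢
        nlinarith [this.2]
      exact_mod_cast h3)
  refine ⟨i, G i, ?_, hGb i⟩
  have := hHb i
  rwa [hi] at this

theorem onb_decomp (b : OrthonormalBasis (Fin 2) ℝ E2) (x : E2) :
    x = inner ℝ (b 0) x • b 0 + inner ℝ (b 1) x • b 1 := by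
  have := b.sum_repr' x
  rw [Fin.sum_univ_two] at this
  exact this.symm

theorem exists_onb (A : E2 →L[ℝ] E2) (htr : LinearMap.trace ℝ _ A.toLinearMap = 0) :
    ∃ b : OrthonormalBasis (Fin 2) ℝ E2, ∃ β γ : ℝ, A (b 0) = γ • b 1 ∧ A (b 1) = β • b 0 ∧
      LinearMap.det A.toLinearMap = -(β * γ) := by
  have tr : ∀ b : OrthonormalBasis (Fin 2) ℝ E2,
      inner ℝ (b 0) (A (b 0)) + inner ℝ (b 1) (A (b 1)) = 0 := by
    intro b
    rw [LinearMap.trace_eq_matrix_trace ℝ b.toBasis, Matrix.trace_fin_two] at htr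
    simpa [LinearMap.toMatrix_apply, OrthonormalBasis.repr_apply_apply] using htr
  -- unit vector with vanishing quadratic form
  let f : ℝ → E2 := fun θ => !₂[Real.cos θ, Real.sin θ]
  have hf : Continuous f := by
    refine (PiLp.continuous_toLp 2 _).comp ?_
    refine continuous_pi fun i => ?_
    fin_cases i
    · exact Real.continuous_cos
    · exact Real.continuous_sin
  let g : ℝ → ℝ := fun θ => inner ℝ (f θ) (A (f θ))
  have hg : Continuous g := hf.inner (A.continuous.comp hf)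
  have h0 : g 0 + g (Real.pi / 2) = 0 := by
    have := tr (EuclideanSpace.basisFun (Fin 2) ℝ)
    have e0 : f 0 = EuclideanSpace.basisFun (Fin 2) ℝ 0 := by
      ext i; fin_cases i <;> simp [f]
    have e1 : f (Real.pi / 2) = EuclideanSpace.basisFun (Fin 2) ℝ 1 := by
      ext i; fin_cases i <;> simp [f]
    simp only [g, e0, e1]; exact this
  have hmem : (0 : ℝ) ∈ uIcc (g 0) (g (Real.pi / 2)) := by
    rcases le_total 0 (g 0) with h | h
    · exact mem_uIcc.mpr (Or.inr ⟨by linarith, h⟩)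
    · exact mem_uIcc.mpr (Or.inl ⟨h, by linarith⟩)
  obtain ⟨θ, -, hθ⟩ := intermediate_value_uIcc hg.continuousOn hmem
  let v : Fin 2 → E2 := ![f θ, !₂[-Real.sin θ, Real.cos θ]]
  have hv : Orthonormal ℝ v := by
    rw [orthonormal_iff_ite]
    have := Real.sin_sq_add_cos_sq θ
    intro i j
    fin_cases i <;> fin_cases j <;>
      simp only [v, f, PiLp.inner_apply, Fin.sum_univ_two] <;> simp <;> nlinarith
  let b : OrthonormalBasis (Fin 2) ℝ E2 :=
    (basisOfOrthonormalOfCardEqFinrank hv (by simp)).toOrthonormalBasis (by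
      rw [coe_basisOfOrthonormalOfCardEqFinrank]; exact hv)
  have hb0 : b 0 = f θ := by
    simp [b, v, Module.Basis.coe_toOrthonormalBasis, coe_basisOfOrthonormalOfCardEqFinrank]
  have d0 : inner ℝ (b 0) (A (b 0)) = 0 := by rw [hb0]; exact hθ
  have d1 : inner ℝ (b 1) (A (b 1)) = 0 := by have := tr b; linarith
  refine ⟨b, inner ℝ (b 0) (A (b 1)), inner ℝ (b 1) (A (b 0)), ?_, ?_, ?_⟩
  · conv_lhs => rw [onb_decomp b (A (b 0))]
    rw [d0]; simp
  · conv_lhs => rw [onb_decomp b (A (b 1))]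
    rw [d1]; simp
  · rw [← LinearMap.det_toMatrix b.toBasis, Matrix.det_fin_two]
    simp [LinearMap.toMatrix_apply, OrthonormalBasis.repr_apply_apply, d0, d1]

/-- lattice point -/
noncomputable def latPt (b : OrthonormalBasis (Fin 2) ℝ E2) (h : ℝ) (ij : ℤ × ℤ) : E2 :=
  (h * ij.1) • b 0 + (h * ij.2) • b 1

theorem inner_latPt0 (b : OrthonormalBasis (Fin 2) ℝ E2) (h : ℝ) (ij : ℤ × ℤ) :
    inner ℝ (b 0) (latPt b h ij) = h * ij.1 := by
  simp [latPt, inner_add_right, inner_smul_right, b.orthonormal.inner_eq_zero]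

theorem inner_latPt1 (b : OrthonormalBasis (Fin 2) ℝ E2) (h : ℝ) (ij : ℤ × ℤ) :
    inner ℝ (b 1) (latPt b h ij) = h * ij.2 := by
  simp [latPt, inner_add_right, inner_smul_right, b.orthonormal.inner_eq_zero]

theorem norm_le_coords (b : OrthonormalBasis (Fin 2) ℝ E2) (x : E2) :
    ‖x‖ ≤ |inner ℝ (b 0) x| + |inner ℝ (b 1) x| := by
  conv_lhs => rw [onb_decomp b x]
  refine (norm_add_le _ _).trans (le_of_eq ?_)
  simp [norm_smul, b.orthonormal.norm_eq_one]

theorem abs_coord_le (b : OrthonormalBasis (Fin 2) ℝ E2) (i : Fin 2) (x : E2) :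
    |inner ℝ (b i) x| ≤ ‖x‖ := by
  have := abs_real_inner_le_norm (b i) x
  rwa [b.orthonormal.norm_eq_one, one_mul] at this

/-- half-open lattice cell -/
def cell (b : OrthonormalBasis (Fin 2) ℝ E2) (h : ℝ) (ij : ℤ × ℤ) : Set E2 :=
  {p | inner ℝ (b 0) p ∈ Ico (h * ij.1) (h * ij.1 + h) ∧
    inner ℝ (b 1) p ∈ Ico (h * ij.2) (h * ij.2 + h)}

theorem measurableSet_cell (b : OrthonormalBasis (Fin 2) ℝ E2) (h : ℝ) (ij : ℤ × ℤ) :
    MeasurableSet (cell b h ij) := by
  have m : ∀ i, Measurable fun p : E2 => inner ℝ (b i) p := fun i =>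
    (continuous_const.inner continuous_id).measurable
  exact ((m 0) measurableSet_Ico).inter ((m 1) measurableSet_Ico)

theorem volume_cell (b : OrthonormalBasis (Fin 2) ℝ E2) (h : ℝ) (hh : 0 ≤ h) (ij : ℤ × ℤ) :
    volume.real (cell b h ij) = h ^ 2 := by
  have mp : MeasurePreserving (fun p : E2 => (WithLp.ofLp (b.repr p) : Fin 2 → ℝ)) :=
    (PiLp.volume_preserving_ofLp (Fin 2)).comp b.measurePreserving_repr
  have e : cell b h ij = (fun p : E2 => (WithLp.ofLp (b.repr p) : Fin 2 → ℝ)) ⁻¹'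
      (Set.pi univ fun i => Ico (![h * ij.1, h * ij.2] i) (![h * ij.1 + h, h * ij.2 + h] i)) := by
    ext p
    simp [cell, Fin.forall_fin_two, OrthonormalBasis.repr_apply_apply]
  rw [e, Measure.real, mp.measure_preimage
    (MeasurableSet.univ_pi fun i => measurableSet_Ico).nullMeasurableSet, Real.volume_pi_Ico,
    Fin.prod_univ_two]
  simp [ENNReal.toReal_ofReal hh, sq]

theorem cell_disjoint (b : OrthonormalBasis (Fin 2) ℝ E2) (h : ℝ) (hh : 0 < h) (ij kl : ℤ × ℤ)
    (hne : ij ≠ kl) : Disjoint (cell b h ij) (cell b h kl) := by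
  have aux : ∀ (m n : ℤ) (t : ℝ), t ∈ Ico (h * m) (h * m + h) → t ∈ Ico (h * n) (h * n + h) →
      m = n := by
    intro m n t ⟨a1, a2⟩ ⟨a3, a4⟩
    have e1 : (m : ℝ) < n + 1 := by nlinarith
    have e2 : (n : ℝ) < m + 1 := by nlinarith
    have e1' : m < n + 1 := by exact_mod_cast e1
    have e2' : n < m + 1 := by exact_mod_cast e2
    omega
  rw [Set.disjoint_left]
  rintro p ⟨p1, p2⟩ ⟨q1, q2⟩
  exact hne (Prod.ext (aux _ _ _ p1 q1) (aux _ _ _ p2 q2))

theorem dist_cell (b : OrthonormalBasis (Fin 2) ℝ E2) (h : ℝ) (ij : ℤ × ℤ) (p : E2)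
    (hp : p ∈ cell b h ij) : dist p (latPt b h ij) ≤ 2 * h := by
  rw [dist_eq_norm]
  refine (norm_le_coords b _).trans ?_
  rw [inner_sub_right, inner_sub_right, inner_latPt0, inner_latPt1]
  obtain ⟨⟨a1, a2⟩, a3, a4⟩ := hp
  rw [abs_of_nonneg (by linarith), abs_of_nonneg (by linarith)]
  linarith

/-- Upper Riemann sums over lattice points close to a compact set. -/
theorem riemann_upper (K U : Set E2) (hK : IsCompact K) (hU : IsOpen U) (hKU : K ⊆ U)
    (φ : E2 → ℝ) (hφ : ContinuousOn φ U) (h0 : ∀ x, 0 ≤ φ x) (h1 : ∀ x, φ x ≤ 1)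
    (b : OrthonormalBasis (Fin 2) ℝ E2) (C : ℝ) (hC : 0 ≤ C) (ε : ℝ) (hε : 0 < ε) :
    ∃ h₀ > 0, ∀ h, 0 < h → h ≤ h₀ → ∀ Z : Finset (ℤ × ℤ),
      (∀ ij ∈ Z, ∃ q ∈ K, dist (latPt b h ij) q ≤ C * h) →
      ∑ ij ∈ Z, h ^ 2 * φ (latPt b h ij) ≤ (∫ p in K, φ p) + ε := by
  obtain ⟨δ₀, hδ₀, hsub⟩ := hK.exists_cthickening_subset_open hU hKU
  set K' := Metric.cthickening δ₀ K with hK'
  have hK'c : IsCompact K' := hK.cthickening
  have hφ' : ContinuousOn φ K' := hφ.mono hsub
  have huc := hK'c.uniformContinuousOn_of_continuous hφ'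
  set M := volume.real K' with hM
  have hM0 : 0 ≤ M := measureReal_nonneg
  set ε' := ε / (2 * (M + 1)) with hε'
  have hε'0 : 0 < ε' := by positivity
  obtain ⟨δ₁, hδ₁, hδ₁'⟩ := Metric.uniformContinuousOn_iff_le.mp huc ε' hε'0
  have ht := tendsto_measure_cthickening_of_isCompact (μ := (volume : Measure E2)) hK
  have ht' : Filter.Tendsto (fun r => volume.real (Metric.cthickening r K)) (nhds 0)
      (nhds (volume.real K)) :=
    (ENNReal.tendsto_toReal hK.measure_lt_top.ne).comp ht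
  have hev : ∀ᶠ r in nhds (0 : ℝ), volume.real (Metric.cthickening r K) < volume.real K + ε / 2 :=
    ht'.eventually (gt_mem_nhds (by linarith))
  obtain ⟨δ₂, hδ₂, hδ₂'⟩ := Metric.eventually_nhds_iff.mp hev
  refine ⟨min (δ₁ / 2) (min δ₀ (δ₂ / 2) / (C + 2)), by positivity, ?_⟩
  intro h hh hle Z hZ
  have hle1 : h ≤ δ₁ / 2 := hle.trans (min_le_left _ _)
  have hle2 : h * (C + 2) ≤ min δ₀ (δ₂ / 2) :=
    (le_div_iff₀ (by positivity)).mp (hle.trans (min_le_right _ _))
  have hle3 : h * (C + 2) ≤ δ₀ := hle2.trans (min_le_left _ _)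
  have hle4 : h * (C + 2) ≤ δ₂ / 2 := hle2.trans (min_le_right _ _)
  set K'' := Metric.cthickening (h * (C + 2)) K with hK''
  have hK''c : IsCompact K'' := hK.cthickening
  have hK''sub : K'' ⊆ K' := Metric.cthickening_mono hle3 K
  have hKK'' : K ⊆ K'' := Metric.self_subset_cthickening K
  have hvol : volume.real K'' < volume.real K + ε / 2 := hδ₂' (by
    rw [Real.dist_eq, sub_zero, abs_of_nonneg (by positivity)]; linarith)
  have hcell : ∀ ij ∈ Z, cell b h ij ⊆ K'' := by
    intro ij hij p hp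
    obtain ⟨q, hq, hd⟩ := hZ ij hij
    refine Metric.mem_cthickening_of_dist_le p q _ K hq ?_
    have := dist_cell b h ij p hp
    have := dist_triangle p (latPt b h ij) q
    linarith
  have hlat : ∀ ij ∈ Z, latPt b h ij ∈ K' := by
    intro ij hij
    obtain ⟨q, hq, hd⟩ := hZ ij hij
    refine Metric.mem_cthickening_of_dist_le _ q _ K hq ?_
    nlinarith
  have hint : IntegrableOn (fun p => φ p + ε') K'' volume :=
    ((hφ'.mono hK''sub).add continuousOn_const).integrableOn_compact hK''c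
  have hint0 : IntegrableOn φ K'' volume := (hφ'.mono hK''sub).integrableOn_compact hK''c
  have step1 : ∀ ij ∈ Z, h ^ 2 * φ (latPt b h ij) ≤ ∫ p in cell b h ij, (φ p + ε') := by
    intro ij hij
    have hfin : volume (cell b h ij) ≠ ⊤ :=
      ((measure_mono (hcell ij hij)).trans_lt hK''c.measure_lt_top).ne
    have : h ^ 2 * φ (latPt b h ij) = ∫ _ in cell b h ij, φ (latPt b h ij) := by
      rw [setIntegral_const, volume_cell b h hh.le, smul_eq_mul]
    rw [this]
    refine setIntegral_mono_on (integrableOn_const hfin) (hint.mono_set (hcell ij hij))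
      (measurableSet_cell b h ij) ?_
    intro p hp
    have hd := dist_cell b h ij p hp
    have := hδ₁' p (hK''sub (hcell ij hij hp)) _ (hlat ij hij) (by linarith)
    rw [Real.dist_eq, abs_le] at this
    linarith [this.1]
  calc ∑ ij ∈ Z, h ^ 2 * φ (latPt b h ij) ≤ ∑ ij ∈ Z, ∫ p in cell b h ij, (φ p + ε') :=
        Finset.sum_le_sum step1
    _ = ∫ p in ⋃ ij ∈ Z, cell b h ij, (φ p + ε') := by
        rw [integral_biUnion_finset Z (fun ij _ => measurableSet_cell b h ij)
          (fun ij _ kl _ hne => cell_disjoint b h hh ij kl hne)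
          (fun ij hij => hint.mono_set (hcell ij hij))]
    _ ≤ ∫ p in K'', (φ p + ε') := by
        refine setIntegral_mono_set hint
          (Filter.Eventually.of_forall fun p => add_nonneg (h0 p) hε'0.le) ?_
        exact (iUnion₂_subset hcell).eventuallyLE
    _ = (∫ p in K'', φ p) + volume.real K'' * ε' := by
        rw [integral_add hint0 (integrableOn_const hK''c.measure_lt_top.ne), setIntegral_const,
          smul_eq_mul]
    _ ≤ ((∫ p in K, φ p) + ε / 2) + ε / 2 := by
        gcongr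
        · have hsplit : ∫ p in K'', φ p = (∫ p in K, φ p) + ∫ p in K'' \ K, φ p := by
            rw [setIntegral_sdiff hK.measurableSet hint0 hKK'']; ring
          have hfin : volume (K'' \ K) ≠ ⊤ :=
            ((measure_mono sdiff_subset).trans_lt hK''c.measure_lt_top).ne
          have hb : ∫ p in K'' \ K, φ p ≤ ∫ _ in K'' \ K, (1 : ℝ) :=
            setIntegral_mono_on (hint0.mono_set sdiff_subset) (integrableOn_const hfin)
              (hK''c.measurableSet.diff hK.measurableSet) (fun p _ => h1 p)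
          rw [setIntegral_const, smul_eq_mul, mul_one,
            measureReal_sdiff hKK'' hK.measurableSet hK''c.measure_lt_top.ne] at hb
          linarith
        · have : volume.real K'' ≤ M := measureReal_mono hK''sub hK'c.measure_lt_top.ne
          calc volume.real K'' * ε' ≤ (M + 1) * ε' := by gcongr; linarith
            _ = ε / 2 := by rw [hε']; field_simp
    _ = (∫ p in K, φ p) + ε := by ring

end Crest.Agent.R211C
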