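import Mathlib
import Crest.Agent.R211.SqLattice

/-! Row 211, part C: covering a ruled set by sheared cylinders over squares. -/

set_option autoImplicit false
open MeasureTheory Set
open scoped ENNReal

namespace Crest.Agent.R211C

/-- The ruled set over `K`. -/
def ruled (V : E2 → E2) (L : ℝ) (K : Set E2) : Set (ℝ × E2) :=
  {z | ∃ p ∈ K, abs z.1 ≤ L ∧ z.2 = p + z.1 • V p}

/-- A finite cover by sheared square cylinders of total cost at most `B`. -/
def Cov (J : E2 → ℝ) (V : E2 → E2) (L : ℝ) (K : Set E2) (B : ℝ) : Prop :=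
  ∃ (ι : Type) (_ : Fintype ι) (c a b g : ι → E2),
    (∀ i, a i ≠ 0 ∧ ‖b i‖ = ‖a i‖ ∧ inner ℝ (a i) (b i) = 0) ∧
    ruled V L K ⊆ ⋃ i, {z : ℝ × E2 | ∃ x ∈ Set.Icc (0 : ℝ) 1, ∃ y ∈ Set.Icc (0 : ℝ) 1,
          z.2 = c i + x • a i + y • b i + z.1 • g i} ∧
    ∑ i, ‖a i‖ ^ 2 * J (g i) ≤ B

theorem Cov.mono {J : E2 → ℝ} {V : E2 → E2} {L : ℝ} {K : Set E2} {B B' : ℝ}
    (h : Cov J V L K B) (hB : B ≤ B') : Cov J V L K B' := by
  obtain ⟨ι, _, c, a, b, g, h1, h2, h3⟩ := h
  exact ⟨ι, inferInstance, c, a, b, g, h1, h2, h3.trans hB⟩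

theorem Cov.union {J : E2 → ℝ} {V : E2 → E2} {L : ℝ} {K K₁ K₂ : Set E2} {B₁ B₂ : ℝ}
    (h₁ : Cov J V L K₁ B₁) (h₂ : Cov J V L K₂ B₂) (hK : K ⊆ K₁ ∪ K₂) :
    Cov J V L K (B₁ + B₂) := by
  obtain ⟨ι, _, c, a, b, g, h1, h2, h3⟩ := h₁
  obtain ⟨ι', _, c', a', b', g', h1', h2', h3'⟩ := h₂
  refine ⟨ι ⊕ ι', inferInstance, Sum.elim c c', Sum.elim a a', Sum.elim b b', Sum.elim g g',
    ?_, ?_, ?_⟩
  · rintro (i | i)
    · exact h1 i
    · exact h1' i
  · rintro z ⟨p, hp, hz⟩
    rcases hK hp with hp | hp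
    · obtain ⟨i, hi⟩ := mem_iUnion.mp (h2 ⟨p, hp, hz⟩)
      exact mem_iUnion.mpr ⟨Sum.inl i, hi⟩
    · obtain ⟨i, hi⟩ := mem_iUnion.mp (h2' ⟨p, hp, hz⟩)
      exact mem_iUnion.mpr ⟨Sum.inr i, hi⟩
  · rw [Fintype.sum_sum_type]
    exact add_le_add h3 h3'

theorem Cov.empty {J : E2 → ℝ} {V : E2 → E2} {L : ℝ} : Cov J V L ∅ 0 := by
  refine ⟨Empty, inferInstance, Empty.elim, Empty.elim, Empty.elim, Empty.elim, ?_, ?_, ?_⟩
  · exact fun i => i.elim
  · rintro z ⟨p, hp, -⟩; exact hp.elim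
  · simp

theorem solve_bound (β γ L s d₁ d₂ h : ℝ) (hs : |s| ≤ L) (h0 : 0 ≤ β * γ)
    (h1 : L ^ 2 * (β * γ) < 1) (hh : 0 ≤ h) (e1 : |d₁ + s * β * d₂| ≤ h / 2)
    (e2 : |d₂ + s * γ * d₁| ≤ h / 2) :
    |d₁| ≤ (1 + L * |β|) / (2 * (1 - L ^ 2 * (β * γ))) * h := by
  have hL : 0 ≤ L := (abs_nonneg s).trans hs
  have hs2 : s ^ 2 ≤ L ^ 2 := by rw [← sq_abs s]; gcongr
  have hpos : 0 < 1 - L ^ 2 * (β * γ) := by linarith
  have hge : 1 - L ^ 2 * (β * γ) ≤ 1 - s ^ 2 * (β * γ) := by nlinarith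
  have id1 : d₁ * (1 - s ^ 2 * (β * γ)) = (d₁ + s * β * d₂) - s * β * (d₂ + s * γ * d₁) := by ring
  have b1 : |d₁| * (1 - s ^ 2 * (β * γ)) ≤ h / 2 + L * |β| * (h / 2) := by
    rw [← abs_of_pos (hpos.trans_le hge), ← abs_mul, id1]
    refine (abs_sub _ _).trans ?_
    rw [abs_mul, abs_mul]
    gcongr
  rw [div_mul_eq_mul_div, le_div_iff₀ (by positivity)]
  nlinarith [abs_nonneg d₁]

theorem piece (J : E2 → ℝ) (hJ0 : ∀ x, 0 ≤ J x) (hJ1 : ∀ x, J x ≤ 1) (hJ : Continuous J)
    (V : E2 → E2) (L : ℝ) (hL : 0 < L) (A : E2 →L[ℝ] E2) (b : OrthonormalBasis (Fin 2) ℝ E2)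
    (β γ : ℝ) (hA0 : A (b 0) = γ • b 1) (hA1 : A (b 1) = β • b 0) (h0 : 0 ≤ β * γ)
    (h1 : L ^ 2 * (β * γ) < 1) (θ : ℝ) (hθ : 0 < θ) :
    ∃ η > 0, ∀ (K W : Set E2), IsCompact K → IsOpen W → K ⊆ W → ContinuousOn V W →
      (∀ x ∈ W, ∀ y ∈ W, ‖V y - V x - A (y - x)‖ ≤ η * ‖y - x‖) →
      ∀ ε > 0, Cov J V L K ((1 + θ) ^ 2 * ((∫ p in K, J (V p)) + ε)) := by
  classical
  have hpos : 0 < 1 - L ^ 2 * (β * γ) := by linarith
  set C := (1 + L * |β|) / (2 * (1 - L ^ 2 * (β * γ))) +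
    (1 + L * |γ|) / (2 * (1 - L ^ 2 * (γ * β))) with hC
  have hpos' : 0 < 1 - L ^ 2 * (γ * β) := by rwa [mul_comm γ β]
  have hC0 : 0 < C := by positivity
  refine ⟨θ / (2 * L * C), by positivity, ?_⟩
  intro K W hK hW hKW hV happ ε hε
  obtain ⟨h₀, hh₀, hR⟩ := riemann_upper K W hK hW hKW (fun p => J (V p))
    (hJ.comp_continuousOn hV) (fun x => hJ0 _) (fun x => hJ1 _) b C hC0.le ε hε
  obtain ⟨δ, hδ, hsub⟩ := hK.exists_cthickening_subset_open hW hKW
  set h := min h₀ (δ / C) with hhdef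
  have hh : 0 < h := by positivity
  have hh1 : h ≤ h₀ := min_le_left _ _
  have hh2 : C * h ≤ δ := by
    have : h ≤ δ / C := min_le_right _ _
    rw [le_div_iff₀ hC0] at this; linarith
  obtain ⟨R, hR'⟩ := hK.isBounded.exists_norm_le
  obtain ⟨N, hN⟩ := exists_nat_ge ((R + C * h) / h)
  rw [div_le_iff₀ hh] at hN
  let Z : Finset (ℤ × ℤ) := ((Finset.Icc (-(N : ℤ)) N) ×ˢ (Finset.Icc (-(N : ℤ)) N)).filter
    (fun ij => ∃ q ∈ K, dist (latPt b h ij) q ≤ C * h)
  have hZ : ∀ ij, (∃ q ∈ K, dist (latPt b h ij) q ≤ C * h) → ij ∈ Z := by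
    intro ij hij
    obtain ⟨q, hq, hd⟩ := id hij
    have hn : ‖latPt b h ij‖ ≤ N * h := by
      have := hR' q hq
      have h3 : ‖latPt b h ij‖ ≤ ‖q‖ + dist (latPt b h ij) q := by
        rw [dist_eq_norm]; exact norm_le_norm_add_norm_sub' _ _
      linarith
    have c0 := (abs_coord_le b 0 (latPt b h ij)).trans hn
    have c1 := (abs_coord_le b 1 (latPt b h ij)).trans hn
    rw [inner_latPt0, abs_le] at c0
    rw [inner_latPt1, abs_le] at c1
    have aux : ∀ m : ℤ, -(N * h) ≤ h * m ∧ h * m ≤ N * h → m ∈ Finset.Icc (-(N : ℤ)) N := by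
      intro m ⟨m1, m2⟩
      have e1 : -(N : ℝ) ≤ m := by nlinarith
      have e2 : (m : ℝ) ≤ N := by nlinarith
      rw [Finset.mem_Icc]
      exact ⟨by exact_mod_cast e1, by exact_mod_cast e2⟩
    exact Finset.mem_filter.mpr ⟨Finset.mem_product.mpr ⟨aux _ c0, aux _ c1⟩, hij⟩
  set t := (1 + θ) * h with ht
  have ht0 : 0 < t := by positivity
  have n0 : ‖b 0‖ = 1 := b.orthonormal.norm_eq_one 0
  have n1 : ‖b 1‖ = 1 := b.orthonormal.norm_eq_one 1
  have o01 : inner ℝ (b 0) (b 1) = 0 := b.orthonormal.inner_eq_zero (by decide)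
  have o10 : inner ℝ (b 1) (b 0) = 0 := b.orthonormal.inner_eq_zero (by decide)
  have i00 : inner ℝ (b 0) (b 0) = 1 := by rw [real_inner_self_eq_norm_sq, n0]; norm_num
  have i11 : inner ℝ (b 1) (b 1) = 1 := by rw [real_inner_self_eq_norm_sq, n1]; norm_num
  refine ⟨{ij // ij ∈ Z}, inferInstance,
    fun ij => latPt b h ij.1 - (t / 2) • b 0 - (t / 2) • b 1, fun _ => t • b 0, fun _ => t • b 1,
    fun ij => V (latPt b h ij.1), ?_, ?_, ?_⟩
  · intro ij
    refine ⟨?_, ?_, ?_⟩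
    · exact smul_ne_zero ht0.ne' (b.orthonormal.ne_zero 0)
    · simp [norm_smul, n0, n1]
    · simp [inner_smul_left, inner_smul_right, o01]
  · rintro ⟨s, X⟩ ⟨q, hq, hs, hX⟩
    simp only at hs hX
    set q0 := inner ℝ (b 0) q with hq0
    set q1 := inner ℝ (b 1) q with hq1
    have hs2 : s ^ 2 ≤ L ^ 2 := by rw [← sq_abs s]; gcongr
    obtain ⟨i, j, hi, hj⟩ := lattice_cover (s * β) (s * γ) ((q0 + s * β * q1) / h)
      ((q1 + s * γ * q0) / h) (by nlinarith [sq_nonneg s]) (by nlinarith [sq_nonneg s])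
    set z := latPt b h (i, j) with hz
    set d := q - z with hd
    have hd0 : inner ℝ (b 0) d = q0 - h * i := by rw [hd, inner_sub_right, inner_latPt0]
    have hd1 : inner ℝ (b 1) d = q1 - h * j := by rw [hd, inner_sub_right, inner_latPt1]
    set d0 := q0 - h * i with hd0'
    set d1 := q1 - h * j with hd1'
    have e1 : |d0 + s * β * d1| ≤ h / 2 := by
      have : d0 + s * β * d1 = h * ((q0 + s * β * q1) / h - (i + s * β * j)) := by
        rw [hd0', hd1']; field_simp; ring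
      rw [this, abs_mul, abs_of_pos hh]; nlinarith
    have e2 : |d1 + s * γ * d0| ≤ h / 2 := by
      have : d1 + s * γ * d0 = h * ((q1 + s * γ * q0) / h - (j + s * γ * i)) := by
        rw [hd0', hd1']; field_simp; ring
      rw [this, abs_mul, abs_of_pos hh]; nlinarith
    have b0 := solve_bound β γ L s d0 d1 h hs h0 h1 hh.le e1 e2
    have b1 := solve_bound γ β L s d1 d0 h hs (by rwa [mul_comm]) (by rwa [mul_comm γ β]) hh.le e2 e1
    have hdn : ‖d‖ ≤ C * h := by
      refine (norm_le_coords b d).trans ?_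
      rw [hd0, hd1, hC, add_mul]
      exact add_le_add b0 b1
    have hdist : dist z q ≤ C * h := by rw [dist_comm, dist_eq_norm]; exact hdn
    have hmem : (i, j) ∈ Z := hZ (i, j) ⟨q, hq, hdist⟩
    have hzW : z ∈ W := hsub (Metric.mem_cthickening_of_dist_le z q δ K hq (hdist.trans hh2))
    have herr := happ z hzW q (hKW hq)
    set err := V q - V z - A (q - z) with herr'
    have herr2 : ‖s • err‖ ≤ θ * h / 2 := by
      rw [norm_smul, Real.norm_eq_abs]
      calc |s| * ‖err‖ ≤ L * (θ / (2 * L * C) * (C * h)) := by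
            gcongr
            refine herr.trans ?_
            gcongr
        _ = θ * h / 2 := by field_simp
    have hAd : A d = (β * d1) • b 0 + (γ * d0) • b 1 := by
      conv_lhs => rw [onb_decomp b d]
      rw [map_add, map_smul, map_smul, hA0, hA1, hd0, hd1, smul_smul, smul_smul, add_comm,
        mul_comm d1, mul_comm d0]
    set w := X - (z + s • V z) with hw
    have hw' : w = d + s • A d + s • err := by
      rw [hw, hX, herr', hd]; module
    have w0 : |inner ℝ (b 0) w| ≤ t / 2 := by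
      have : inner ℝ (b 0) w = (d0 + s * β * d1) + inner ℝ (b 0) (s • err) := by
        rw [hw', inner_add_right, inner_add_right, hd0, hAd, inner_smul_right, inner_add_right,
          inner_smul_right, inner_smul_right, i00, o01]; ring
      rw [this]
      refine (abs_add_le _ _).trans ?_
      have := (abs_coord_le b 0 (s • err)).trans herr2
      rw [ht]; linarith
    have w1 : |inner ℝ (b 1) w| ≤ t / 2 := by
      have : inner ℝ (b 1) w = (d1 + s * γ * d0) + inner ℝ (b 1) (s • err) := by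
        rw [hw', inner_add_right, inner_add_right, hd1, hAd, inner_smul_right, inner_add_right,
          inner_smul_right, inner_smul_right, i11, o10]; ring
      rw [this]
      refine (abs_add_le _ _).trans ?_
      have := (abs_coord_le b 1 (s • err)).trans herr2
      rw [ht]; linarith
    refine mem_iUnion.mpr ⟨⟨(i, j), hmem⟩, 1 / 2 + inner ℝ (b 0) w / t, ?_,
      1 / 2 + inner ℝ (b 1) w / t, ?_, ?_⟩
    · rw [abs_le] at w0
      have a1 : -(1 / 2 : ℝ) ≤ inner ℝ (b 0) w / t := by rw [le_div_iff₀ ht0]; linarith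
      have a2 : inner ℝ (b 0) w / t ≤ 1 / 2 := by rw [div_le_iff₀ ht0]; linarith
      constructor <;> linarith
    · rw [abs_le] at w1
      have a1 : -(1 / 2 : ℝ) ≤ inner ℝ (b 1) w / t := by rw [le_div_iff₀ ht0]; linarith
      have a2 : inner ℝ (b 1) w / t ≤ 1 / 2 := by rw [div_le_iff₀ ht0]; linarith
      constructor <;> linarith
    · have hwd := onb_decomp b w
      have e3 : X = z + s • V z + w := by rw [hw]; abel
      have e4 : ∀ r : ℝ, (1 / 2 + r / t) * t = t / 2 + r := fun r => by field_simp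
      show X = z - (t / 2) • b 0 - (t / 2) • b 1 + (1 / 2 + inner ℝ (b 0) w / t) • t • b 0 +
        (1 / 2 + inner ℝ (b 1) w / t) • t • b 1 + s • V z
      rw [smul_smul, smul_smul, e4, e4, e3]
      conv_lhs => rw [hwd]
      module
  · have hsum := hR h hh hh1 Z (fun ij hij => (Finset.mem_filter.mp hij).2)
    have : ∑ ij : {ij // ij ∈ Z}, ‖t • b 0‖ ^ 2 * J (V (latPt b h ij.1))
        = (1 + θ) ^ 2 * ∑ ij ∈ Z, h ^ 2 * J (V (latPt b h ij)) := by
      rw [Finset.mul_sum, ← Finset.sum_coe_sort Z]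
      refine Finset.sum_congr rfl fun ij _ => ?_
      rw [norm_smul, n0, Real.norm_eq_abs, abs_of_pos ht0, ht]; ring
    rw [this]
    gcongr

theorem global (J : E2 → ℝ) (hJ0 : ∀ x, 0 ≤ J x) (hJ1 : ∀ x, J x ≤ 1) (hJ : Continuous J)
    (D : Set E2) (hD : IsCompact D) (V : E2 → E2) (U : Set E2)
    (hU : IsOpen U) (hDU : D ⊆ U) (hV : ContDiffOn ℝ 1 V U) (L : ℝ) (hL : 0 < L)
    (htr : ∀ p ∈ D, LinearMap.trace ℝ _ (fderiv ℝ V p).toLinearMap = 0)
    (hdet : ∀ p ∈ D, -(L ^ 2)⁻¹ < LinearMap.det (fderiv ℝ V p).toLinearMap ∧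
      LinearMap.det (fderiv ℝ V p).toLinearMap ≤ 0)
    (ε : ℝ) (hε : 0 < ε) : Cov J V L D ((∫ p in D, J (V p)) + ε) := by
  classical
  have hVc : ContinuousOn V U := hV.continuousOn
  have hint : ∀ K, IsCompact K → K ⊆ D → IntegrableOn (fun p => J (V p)) K volume :=
    fun K hK hKD => ((hJ.comp_continuousOn hVc).mono (hKD.trans hDU)).integrableOn_compact hK
  have main : ∀ θ > 0, ∀ ε > 0, Cov J V L D ((1 + θ) ^ 2 * ((∫ p in D, J (V p)) + ε)) := by
    intro θ hθ
    have loc : ∀ p ∈ D, ∃ r > 0, ∀ K, IsCompact K → K ⊆ Metric.closedBall p r →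
        ∀ ε > 0, Cov J V L K ((1 + θ) ^ 2 * ((∫ p in K, J (V p)) + ε)) := by
      intro p hp
      obtain ⟨b, β, γ, hA0, hA1, hdet'⟩ := exists_onb (fderiv ℝ V p) (htr p hp)
      obtain ⟨hd1, hd2⟩ := hdet p hp
      rw [hdet'] at hd1 hd2
      have h1 : L ^ 2 * (β * γ) < 1 := by
        have : β * γ < (L ^ 2)⁻¹ := by linarith
        calc L ^ 2 * (β * γ) < L ^ 2 * (L ^ 2)⁻¹ := by gcongr
          _ = 1 := by field_simp
      obtain ⟨η, hη, hpiece⟩ := piece J hJ0 hJ1 hJ V L hL (fderiv ℝ V p) b β γ hA0 hA1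
        (by linarith) h1 θ hθ
      have hstrict : HasStrictFDerivAt V (fderiv ℝ V p) p :=
        (hV.contDiffAt (hU.mem_nhds (hDU hp))).hasStrictFDerivAt one_ne_zero
      obtain ⟨S, hS, happ⟩ := hstrict.approximates_deriv_on_nhds (c := ⟨η, hη.le⟩)
        (Or.inr (by exact_mod_cast hη))
      obtain ⟨r, hr, hball⟩ := Metric.mem_nhds_iff.mp (Filter.inter_mem hS (hU.mem_nhds (hDU hp)))
      refine ⟨r / 2, by positivity, fun K hK hKs => ?_⟩
      refine hpiece K (Metric.ball p r) hK Metric.isOpen_ball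
        (hKs.trans (Metric.closedBall_subset_ball (by linarith)))
        (hVc.mono fun x hx => (hball hx).2) ?_
      intro x hx y hy
      exact happ y (hball hy).1 x (hball hx).1
    choose! r hr hloc using loc
    obtain ⟨T, hTD, hT⟩ := hD.elim_nhds_subcover (fun p => Metric.ball p (r p))
      (fun p hp => Metric.ball_mem_nhds p (hr p hp))
    have ind : ∀ T : Finset E2, (∀ p ∈ T, p ∈ D) → ∀ K, IsCompact K → K ⊆ D →
        K ⊆ ⋃ p ∈ T, Metric.ball p (r p) →
        ∀ ε > 0, Cov J V L K ((1 + θ) ^ 2 * ((∫ p in K, J (V p)) + ε)) := by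
      intro T
      induction T using Finset.induction_on with
      | empty =>
        intro _ K _ _ hKs ε hε
        have : K = ∅ := by simpa using hKs
        subst this
        exact Cov.empty.mono (by simp; positivity)
      | insert p T hpT ih =>
        intro hT K hK hKD hKs ε hε
        have hp : p ∈ D := hT p (Finset.mem_insert_self _ _)
        have hK1 : IsCompact (K ∩ Metric.closedBall p (r p)) :=
          hK.inter_right Metric.isClosed_closedBall
        have hK2 : IsCompact (K \ Metric.ball p (r p)) := hK.diff Metric.isOpen_ball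
        have c1 := hloc p hp _ hK1 inter_subset_right (ε / 2) (by positivity)
        have c2 := ih (fun q hq => hT q (Finset.mem_insert_of_mem hq)) _ hK2
          (sdiff_subset.trans hKD) (by
            intro x hx
            have := hKs hx.1
            rw [Finset.set_biUnion_insert] at this
            exact this.resolve_left hx.2) (ε / 2) (by positivity)
        have hun : K = (K ∩ Metric.closedBall p (r p)) ∪ (K \ Metric.ball p (r p)) := by
          ext x
          constructor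
          · intro hx
            by_cases hb : x ∈ Metric.ball p (r p)
            · exact Or.inl ⟨hx, Metric.ball_subset_closedBall hb⟩
            · exact Or.inr ⟨hx, hb⟩
          · rintro (hx | hx)
            · exact hx.1
            · exact hx.1
        refine (c1.union c2 hun.subset).mono (le_of_eq ?_)
        have hae : AEDisjoint volume (K ∩ Metric.closedBall p (r p)) (K \ Metric.ball p (r p)) := by
          refine measure_mono_null ?_ (Measure.addHaar_sphere volume p (r p))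
          rintro x ⟨hx1, hx2⟩
          rw [← Metric.closedBall_sdiff_ball]
          exact ⟨hx1.2, hx2.2⟩
        have hI := setIntegral_union₀ hae hK2.measurableSet.nullMeasurableSet
          (hint _ hK1 (inter_subset_left.trans hKD)) (hint _ hK2 (sdiff_subset.trans hKD))
        rw [← hun] at hI
        rw [hI]; ring
    exact ind T hTD D hD subset_rfl hT
  set I := ∫ p in D, J (V p) with hI
  have hI0 : 0 ≤ I := setIntegral_nonneg hD.measurableSet fun x _ => hJ0 _
  set θ := min 1 (ε / (6 * (I + ε))) with hθ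
  have hθ0 : 0 < θ := by positivity
  have hθ1 : θ ≤ 1 := min_le_left _ _
  have hθ2 : θ * (6 * (I + ε)) ≤ ε := (le_div_iff₀ (by positivity)).mp (min_le_right _ _)
  refine (main θ hθ0 (ε / 2) (by positivity)).mono ?_
  have : θ ^ 2 ≤ θ := by nlinarith
  nlinarith

end Crest.Agent.R211C
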