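import Mathlib
import Crest.Agent.R211.SqLattice

/-! Row 211, part C: relatively open perpendicular bases over enlarged squares. -/

set_option autoImplicit false
open MeasureTheory Set
open scoped ENNReal

namespace Crest.Agent.R211C

abbrev E3 := EuclideanSpace ℝ (Fin 3)

theorem inner3 (x y : E3) : inner ℝ x y = x 0 * y 0 + x 1 * y 1 + x 2 * y 2 := by
  simp only [PiLp.inner_apply, Fin.sum_univ_three, RCLike.inner_apply, conj_trivial]
  ring

/-- open box in orthonormal coordinates -/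
def obox (b : OrthonormalBasis (Fin 2) ℝ E2) (l₀ l₁ t : ℝ) : Set E2 :=
  {p | inner ℝ (b 0) p ∈ Ioo l₀ (l₀ + t) ∧ inner ℝ (b 1) p ∈ Ioo l₁ (l₁ + t)}

theorem isOpen_obox (b : OrthonormalBasis (Fin 2) ℝ E2) (l₀ l₁ t : ℝ) :
    IsOpen (obox b l₀ l₁ t) := by
  have m : ∀ i, Continuous fun p : E2 => inner ℝ (b i) p := fun i =>
    continuous_const.inner continuous_id
  exact (isOpen_Ioo.preimage (m 0)).inter (isOpen_Ioo.preimage (m 1))

theorem volume_obox (b : OrthonormalBasis (Fin 2) ℝ E2) (l₀ l₁ t : ℝ) (ht : 0 ≤ t) :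
    volume (obox b l₀ l₁ t) = ENNReal.ofReal (t ^ 2) := by
  have mp : MeasurePreserving (fun p : E2 => (WithLp.ofLp (b.repr p) : Fin 2 → ℝ)) :=
    (PiLp.volume_preserving_ofLp (Fin 2)).comp b.measurePreserving_repr
  have e : obox b l₀ l₁ t = (fun p : E2 => (WithLp.ofLp (b.repr p) : Fin 2 → ℝ)) ⁻¹'
      (Set.pi univ fun i => Ioo (![l₀, l₁] i) (![l₀ + t, l₁ + t] i)) := by
    ext p
    simp [obox, Fin.forall_fin_two, OrthonormalBasis.repr_apply_apply]
  rw [e, mp.measure_preimage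
    (MeasurableSet.univ_pi fun i => measurableSet_Ioo).nullMeasurableSet, Real.volume_pi_Ioo,
    Fin.prod_univ_two]
  simp [ENNReal.ofReal_mul ht, sq]

theorem isBounded_obox (b : OrthonormalBasis (Fin 2) ℝ E2) (l₀ l₁ t : ℝ) :
    Bornology.IsBounded (obox b l₀ l₁ t) := by
  rw [isBounded_iff_forall_norm_le]
  refine ⟨(|l₀| + |t|) + (|l₁| + |t|), fun p ⟨⟨a1, a2⟩, a3, a4⟩ => (norm_le_coords b p).trans ?_⟩
  have := le_abs_self l₀
  have := neg_abs_le l₀
  have := le_abs_self l₁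
  have := neg_abs_le l₁
  have := le_abs_self t
  have := abs_nonneg t
  gcongr <;> rw [abs_le] <;> constructor <;> linarith

theorem exists_onb_of_square (a b : E2) (ha : a ≠ 0) (hb : ‖b‖ = ‖a‖) (hab : inner ℝ a b = 0) :
    ∃ e : OrthonormalBasis (Fin 2) ℝ E2, a = ‖a‖ • e 0 ∧ b = ‖a‖ • e 1 := by
  have hn : ‖a‖ ≠ 0 := norm_ne_zero_iff.mpr ha
  let v : Fin 2 → E2 := ![‖a‖⁻¹ • a, ‖a‖⁻¹ • b]
  have hv : Orthonormal ℝ v := by
    rw [orthonormal_iff_ite]
    have hba : inner ℝ b a = 0 := by rw [real_inner_comm]; exact hab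
    intro i j
    fin_cases i <;> fin_cases j <;>
      simp [v, inner_smul_left, inner_smul_right, hab, hba, norm_smul, hb, hn]
  let e : OrthonormalBasis (Fin 2) ℝ E2 :=
    (basisOfOrthonormalOfCardEqFinrank hv (by simp)).toOrthonormalBasis (by
      rw [coe_basisOfOrthonormalOfCardEqFinrank]; exact hv)
  refine ⟨e, ?_, ?_⟩ <;>
    simp [e, v, Module.Basis.coe_toOrthonormalBasis, coe_basisOfOrthonormalOfCardEqFinrank,
      smul_smul, hn]

/-- projection of the embedded plane along the sheared direction -/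
noncomputable def projLin (h : ℝ) (g : E2) : E2 →ₗ[ℝ] E3 where
  toFun ξ := !₂[-((ξ 0 * g 0 + h ^ 2 * ξ 1 * g 1) / (1 + g 0 ^ 2 + h ^ 2 * g 1 ^ 2)),
    ξ 0 - (ξ 0 * g 0 + h ^ 2 * ξ 1 * g 1) / (1 + g 0 ^ 2 + h ^ 2 * g 1 ^ 2) * g 0,
    h * ξ 1 - (ξ 0 * g 0 + h ^ 2 * ξ 1 * g 1) / (1 + g 0 ^ 2 + h ^ 2 * g 1 ^ 2) * (h * g 1)]
  map_add' x y := by
    ext i; fin_cases i <;> simp <;> ring
  map_smul' c x := by
    ext i; fin_cases i <;> simp <;> ring

theorem normDet_projLin (h : ℝ) (hh : 0 < h) (g : E2) :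
    (projLin h g).normDet = h / Real.sqrt (1 + g 0 ^ 2 + h ^ 2 * g 1 ^ 2) := by
  have hn : 0 < 1 + g 0 ^ 2 + h ^ 2 * g 1 ^ 2 := by positivity
  have h1 := (projLin h g).normDet_sq_eq_det_gram (EuclideanSpace.basisFun (Fin 2) ℝ)
  have h2 : (projLin h g).normDet ^ 2 = (h / Real.sqrt (1 + g 0 ^ 2 + h ^ 2 * g 1 ^ 2)) ^ 2 := by
    rw [div_pow, Real.sq_sqrt hn.le]
    simp only [RCLike.ofReal_real_eq_id, id] at h1
    rw [h1, Matrix.det_fin_two]
    simp only [Matrix.gram_apply, inner3, projLin]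
    simp
    field_simp
    ring
  exact (sq_eq_sq₀ (LinearMap.normDet_nonneg _) (by positivity)).mp h2

theorem open_base (h : ℝ) (hh : 0 < h) (κ : ℝ) (hκ : 0 < κ) (c a b g : E2) (ha : a ≠ 0)
    (hb : ‖b‖ = ‖a‖) (hab : inner ℝ a b = 0) :
    ∃ (u : E3) (B : Set E3), ‖u‖ = 1 ∧ Bornology.IsBounded B ∧
      (∃ O : Set E3, IsOpen O ∧ B = O ∩ {x | inner ℝ x u = 0}) ∧
      (∀ (s : ℝ) (ξ : E2), (∃ x ∈ Set.Icc (0 : ℝ) 1, ∃ y ∈ Set.Icc (0 : ℝ) 1,
        ξ = c + x • a + y • b + s • g) → ∃ y ∈ B, ∃ τ : ℝ, !₂[s, ξ 0, h * ξ 1] = y + τ • u) ∧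
      (μHE[2] B).toReal ≤
        h * (1 + 2 * κ) ^ 2 * (‖a‖ ^ 2 / Real.sqrt (1 + g 0 ^ 2 + h ^ 2 * g 1 ^ 2)) := by
  obtain ⟨e, hea, heb⟩ := exists_onb_of_square a b ha hb hab
  have hn : 0 < 1 + g 0 ^ 2 + h ^ 2 * g 1 ^ 2 := by positivity
  set N := Real.sqrt (1 + g 0 ^ 2 + h ^ 2 * g 1 ^ 2) with hN
  have hN0 : 0 < N := Real.sqrt_pos.mpr hn
  have hN2 : N ^ 2 = 1 + g 0 ^ 2 + h ^ 2 * g 1 ^ 2 := Real.sq_sqrt hn.le
  have hna : 0 < ‖a‖ := norm_pos_iff.mpr ha
  let d : E3 := !₂[1, g 0, h * g 1]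
  let u : E3 := N⁻¹ • d
  let P : E3 → E2 := fun z => !₂[z 1 - z 0 * g 0, z 2 / h - z 0 * g 1]
  have hP : Continuous P := by
    refine (PiLp.continuous_toLp 2 _).comp ?_
    refine continuous_pi fun i => ?_
    fin_cases i <;> simp <;> fun_prop
  let S := obox e (inner ℝ (e 0) c - κ * ‖a‖) (inner ℝ (e 1) c - κ * ‖a‖) ((1 + 2 * κ) * ‖a‖)
  have hin : ∀ z : E3, inner ℝ z u = N⁻¹ * (z 0 + z 1 * g 0 + z 2 * (h * g 1)) := by
    intro z
    simp only [u, inner_smul_right]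
    rw [inner3]
    simp [d]
  have hsub : P ⁻¹' S ∩ {x | inner ℝ x u = 0} ⊆ projLin h g '' S := by
    rintro z ⟨hz1, hz2⟩
    refine ⟨P z, hz1, ?_⟩
    have h3 : z 0 + z 1 * g 0 + z 2 * (h * g 1) = 0 := by
      have : inner ℝ z u = 0 := hz2
      rw [hin] at this
      exact (mul_eq_zero.mp this).resolve_left (inv_ne_zero hN0.ne')
    have h4 : ((z 1 - z 0 * g 0) * g 0 + h ^ 2 * (z 2 / h - z 0 * g 1) * g 1) /
        (1 + g 0 ^ 2 + h ^ 2 * g 1 ^ 2) = -z 0 := by
      rw [div_eq_iff hn.ne']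
      have : h ^ 2 * (z 2 / h - z 0 * g 1) = h * z 2 - h ^ 2 * z 0 * g 1 := by field_simp
      rw [this]; linear_combination h3
    ext i
    fin_cases i
    · simp [projLin, P, h4]
    · simp [projLin, P, h4]
    · simp only [projLin, P]
      simp [h4]
      field_simp
      ring
  refine ⟨u, P ⁻¹' S ∩ {x | inner ℝ x u = 0}, ?_, ?_,
    ⟨P ⁻¹' S, (isOpen_obox _ _ _ _).preimage hP, rfl⟩, ?_, ?_⟩
  · have hd : ‖d‖ = N := by
      rw [EuclideanSpace.norm_eq, hN, Fin.sum_univ_three]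
      congr 1
      simp [d, mul_pow]
    simp only [u, norm_smul, hd, norm_inv, Real.norm_eq_abs, abs_of_pos hN0]
    field_simp
  · refine Bornology.IsBounded.subset ?_ hsub
    exact (LinearMap.toContinuousLinearMap (projLin h g)).lipschitz.isBounded_image
      (isBounded_obox _ _ _ _)
  · rintro s ξ ⟨x, hx, y, hy, hξ⟩
    set z : E3 := !₂[s, ξ 0, h * ξ 1] with hz
    refine ⟨z - inner ℝ z u • u, ⟨?_, ?_⟩, inner ℝ z u, by simp⟩
    · have hPz : P (z - inner ℝ z u • u) = c + x • a + y • b := by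
        have : c + x • a + y • b = ξ - s • g := by rw [hξ]; abel
        rw [this]
        generalize inner ℝ z u = τ
        ext i
        fin_cases i
        · simp [P, z, u, d]; ring
        · simp [P, z, u, d]; field_simp; ring
      show P _ ∈ S
      rw [hPz]
      have o01 : inner ℝ (e 0) (e 1) = 0 := e.orthonormal.inner_eq_zero (by decide)
      have o10 : inner ℝ (e 1) (e 0) = 0 := e.orthonormal.inner_eq_zero (by decide)
      have i00 : inner ℝ (e 0) (e 0) = 1 := by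
        rw [real_inner_self_eq_norm_sq, e.orthonormal.norm_eq_one]; norm_num
      have i11 : inner ℝ (e 1) (e 1) = 1 := by
        rw [real_inner_self_eq_norm_sq, e.orthonormal.norm_eq_one]; norm_num
      have a0 : inner ℝ (e 0) a = ‖a‖ := by
        conv_lhs => rw [hea]
        rw [inner_smul_right, i00, mul_one]
      have a1 : inner ℝ (e 1) a = 0 := by
        conv_lhs => rw [hea]
        rw [inner_smul_right, o10, mul_zero]
      have b0 : inner ℝ (e 0) b = 0 := by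
        rw [heb, inner_smul_right, o01, mul_zero]
      have b1 : inner ℝ (e 1) b = ‖a‖ := by
        rw [heb, inner_smul_right, i11, mul_one]
      obtain ⟨x0, x1⟩ := hx
      obtain ⟨y0, y1⟩ := hy
      have k0 : 0 < κ * ‖a‖ := by positivity
      refine ⟨⟨?_, ?_⟩, ?_, ?_⟩ <;>
        simp only [inner_add_right, inner_smul_right, a0, a1, b0, b1] <;> nlinarith
    · have huu : inner ℝ u u = 1 := by
        rw [hin]
        simp only [u, d]
        simp
        field_simp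
        linear_combination -hN2
      show inner ℝ (z - inner ℝ z u • u) u = 0
      rw [inner_sub_left, inner_smul_left, huu]; simp
  · have h1 := (projLin h g).euclideanHausdorffMeasure_image_eq_normDet_mul_volume S
    rw [finrank_euclideanSpace_fin, normDet_projLin h hh g, volume_obox _ _ _ _ (by positivity),
      ← ENNReal.ofReal_mul (by positivity)] at h1
    refine (ENNReal.toReal_mono (by rw [h1]; exact ENNReal.ofReal_ne_top)
      (measure_mono hsub)).trans (le_of_eq ?_)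
    rw [h1, ENNReal.toReal_ofReal (by positivity)]
    ring

end Crest.Agent.R211C
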