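import Crest.Agent.R211.Area

/-!
One piece of a radial sweep, projected along its axis: an outer and an inner triangle.
-/

set_option autoImplicit false
open MeasureTheory
open scoped ENNReal

namespace Crest.Agent.R211.Sweep

open Crest.Agent.R211

/-- Orthogonal projection along a nonzero vector. -/
noncomputable def pr (u y : E3) : E3 := y - (inner ℝ y u / ‖u‖ ^ 2) • u

theorem pr_add (u x y : E3) : pr u (x + y) = pr u x + pr u y := by
  simp only [pr, inner_add_left, add_div]; module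

theorem pr_smul (u x : E3) (s : ℝ) : pr u (s • x) = s • pr u x := by
  simp only [pr, real_inner_smul_left, mul_div_assoc]; module

theorem pr_self {u : E3} (hu : u ≠ 0) : pr u u = 0 := by
  have : ‖u‖ ^ 2 ≠ 0 := pow_ne_zero 2 (norm_ne_zero_iff.mpr hu)
  simp only [pr, real_inner_self_eq_norm_sq, div_self this, one_smul, sub_self]

theorem pr_inner {u : E3} (hu : u ≠ 0) (y : E3) : inner ℝ (pr u y) u = 0 := by
  have : ‖u‖ ^ 2 ≠ 0 := pow_ne_zero 2 (norm_ne_zero_iff.mpr hu)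
  simp only [pr, inner_sub_left, real_inner_smul_left, real_inner_self_eq_norm_sq]
  field_simp
  ring

theorem gramA_comb (A B : E3) (x y z t : ℝ) :
    gramA (x • A + y • B) (z • A + t • B) = |x * t - y * z| * gramA A B := by
  rw [← sq_eq_sq₀ (gramA_nonneg _ _) (by have := gramA_nonneg A B; positivity), gramA_sq,
    mul_pow, gramA_sq, sq_abs, ← real_inner_self_eq_norm_sq, ← real_inner_self_eq_norm_sq,
    ← real_inner_self_eq_norm_sq, ← real_inner_self_eq_norm_sq]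
  simp only [inner_add_left, inner_add_right, real_inner_smul_left, real_inner_smul_right,
    real_inner_comm A B]
  ring

theorem norm_sq_axis {e w : E3} (he : ‖e‖ = 1) (hw : inner ℝ w e = 0) :
    ‖e + w‖ ^ 2 = 1 + ‖w‖ ^ 2 := by
  rw [norm_add_sq_real, he, real_inner_comm, hw]; ring

theorem axis_ne_zero {e w : E3} (he : ‖e‖ = 1) (hw : inner ℝ w e = 0) : e + w ≠ 0 := by
  intro h
  have := norm_sq_axis he hw
  rw [h, norm_zero] at this
  nlinarith [sq_nonneg ‖w‖]

theorem gramA_pr {e w a b : E3} (he : ‖e‖ = 1) (hw : inner ℝ w e = 0) (ha : inner ℝ a e = 0)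
    (hb : inner ℝ b e = 0) :
    gramA (pr (e + w) a) (pr (e + w) b) = gramA a b / Real.sqrt (1 + ‖w‖ ^ 2) := by
  have hu := axis_ne_zero he hw
  have hn : ‖e + w‖ ≠ 0 := norm_ne_zero_iff.mpr hu
  have hv : ‖‖e + w‖⁻¹ • (e + w)‖ = 1 := by
    rw [norm_smul, norm_inv, norm_norm, inv_mul_cancel₀ hn]
  have hp : ∀ y, pr (e + w) y = proj (‖e + w‖⁻¹ • (e + w)) y := by
    intro y
    simp only [pr, proj, real_inner_smul_right, smul_smul]
    congr 2
    field_simp
  have h1 : gramA a b = |det3 a b e| := by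
    rw [← gramA_proj he]
    simp [proj, ha, hb]
  have h2 : det3 a b w = 0 := by
    have he2 : e 0 ^ 2 + e 1 ^ 2 + e 2 ^ 2 = 1 := by rw [← norm_sq_E3, he]; norm_num
    rw [inner_E3] at ha hb hw
    simp only [det3]
    linear_combination
      (-(a 0 * (b 1 * w 2 - b 2 * w 1) - a 1 * (b 0 * w 2 - b 2 * w 0) +
        a 2 * (b 0 * w 1 - b 1 * w 0))) * he2 +
      (e 0 * (b 1 * w 2 - b 2 * w 1) - e 1 * (b 0 * w 2 - b 2 * w 0) +
        e 2 * (b 0 * w 1 - b 1 * w 0)) * ha +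
      (a 0 * (e 1 * w 2 - e 2 * w 1) - a 1 * (e 0 * w 2 - e 2 * w 0) +
        a 2 * (e 0 * w 1 - e 1 * w 0)) * hb +
      (a 0 * (b 1 * e 2 - b 2 * e 1) - a 1 * (b 0 * e 2 - b 2 * e 0) +
        a 2 * (b 0 * e 1 - b 1 * e 0)) * hw
  have h3 : det3 a b (‖e + w‖⁻¹ • (e + w)) = ‖e + w‖⁻¹ * (det3 a b e + det3 a b w) := by
    simp only [det3, PiLp.smul_apply, PiLp.add_apply, smul_eq_mul]
    ring
  rw [hp, hp, gramA_proj hv, h3, h2, add_zero, abs_mul, ← h1, ← norm_sq_axis he hw,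
    Real.sqrt_sq (norm_nonneg _), abs_of_nonneg (inv_nonneg.mpr (norm_nonneg _))]
  ring

theorem gramA_pos {a b : E3} (hab : LinearIndependent ℝ ![a, b]) : 0 < gramA a b := by
  rw [LinearIndependent.pair_iff] at hab
  rcases (gramA_nonneg a b).lt_or_eq with h | h
  · exact h
  exfalso
  have h1 := gramA_sq a b
  rw [← h] at h1
  have h2 : ‖(‖b‖ ^ 2) • a + (-inner ℝ a b) • b‖ ^ 2 = 0 := by
    rw [← real_inner_self_eq_norm_sq]
    simp only [inner_add_left, inner_add_right, real_inner_smul_left, real_inner_smul_right,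
      real_inner_comm a b]
    rw [real_inner_self_eq_norm_sq, real_inner_self_eq_norm_sq]
    linear_combination (-‖b‖ ^ 2) * h1
  have h3 := (hab _ _ (norm_eq_zero.mp (pow_eq_zero_iff two_ne_zero |>.mp h2))).1
  have h4 : b = 0 := norm_eq_zero.mp (pow_eq_zero_iff two_ne_zero |>.mp h3)
  have := (hab 0 1 (by simp [h4])).2
  exact one_ne_zero this

theorem affineIndependent_of_gramA {p q r : E3} (h : gramA (q - p) (r - p) ≠ 0) :
    AffineIndependent ℝ ![p, q, r] := by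
  rw [affineIndependent_iff_not_collinear_set]
  intro hc
  rw [collinear_iff_of_mem (p₀ := p) (by simp)] at hc
  obtain ⟨v, hv⟩ := hc
  obtain ⟨r1, h1⟩ := hv q (by simp)
  obtain ⟨r2, h2⟩ := hv r (by simp)
  apply h
  have e1 : q - p = r1 • v + (0 : ℝ) • v := by rw [h1]; simp
  have e2 : r - p = r2 • v + (0 : ℝ) • v := by rw [h2]; simp
  rw [e1, e2, gramA_comb]
  simp

theorem exists_piece {N : ℕ} (t : Fin (N + 1) → ℝ) (h0 : t 0 < t (Fin.last N)) {τ : ℝ}
    (h1 : t 0 ≤ τ) (h2 : τ ≤ t (Fin.last N)) :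
    ∃ i : Fin N, t i.castSucc ≤ τ ∧ τ ≤ t i.succ := by
  classical
  have hN : 0 < N := by
    rcases Nat.eq_zero_or_pos N with rfl | h
    · exact absurd h0 (lt_irrefl _)
    · exact h
  obtain ⟨i, hi, hmax⟩ := Finset.exists_max_image
    (Finset.univ.filter fun i : Fin N => t i.castSucc ≤ τ) (fun i => (i : ℕ))
    ⟨⟨0, hN⟩, by simpa using h1⟩
  refine ⟨i, (Finset.mem_filter.mp hi).2, ?_⟩
  by_contra hcon
  push Not at hcon
  by_cases hl : (i : ℕ) + 1 < N
  · have := hmax ⟨i + 1, hl⟩ (Finset.mem_filter.mpr ⟨Finset.mem_univ _, hcon.le⟩)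
    simp at this
  · have : i.succ = Fin.last N := by
      ext
      have := i.2
      simp only [Fin.val_succ, Fin.val_last]
      omega
    rw [this] at hcon
    linarith

theorem sum_telescope {N : ℕ} (G : Fin (N + 1) → ℝ) :
    ∑ i : Fin N, (G i.succ - G i.castSucc) = G (Fin.last N) - G 0 := by
  rw [Finset.sum_sub_distrib]
  have h1 := Fin.sum_univ_succ G
  have h2 := Fin.sum_univ_castSucc G
  linarith

theorem riemann {N : ℕ} (t : Fin (N + 1) → ℝ) (F : ℝ → ℝ) (v : Fin N → ℝ) (K : ℝ)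
    (h : ∀ i : Fin N, |v i - (F (t i.succ) - F (t i.castSucc))| ≤ K * (t i.succ - t i.castSucc)) :
    |∑ i, v i - (F (t (Fin.last N)) - F (t 0))| ≤ K * (t (Fin.last N) - t 0) := by
  rw [← sum_telescope (fun i => F (t i)), ← sum_telescope t, ← Finset.sum_sub_distrib,
    Finset.mul_sum]
  exact (Finset.abs_sum_le_sum_abs _ _).trans (Finset.sum_le_sum fun i _ => h i)

/-- Increments of the axis direction inside one piece. -/
theorem increment {a b : E3} {α β : ℝ} {w : ℝ → E3} {lam : ℝ → ℝ}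
    (hlam : ContinuousOn lam (Set.Icc α β))
    (hw' : ∀ t ∈ Set.Icc α β, HasDerivWithinAt w (lam t • (a + t • b)) (Set.Icc α β) t)
    {Λ : ℝ} (hΛ : ∀ t ∈ Set.Icc α β, |lam t| ≤ Λ) {t0 t1 c τ : ℝ} (h0 : α ≤ t0) (h1 : t1 ≤ β)
    (hc : c ∈ Set.Icc t0 t1) (hτ : τ ∈ Set.Icc t0 t1) :
    ∃ X Y : ℝ, |X| ≤ Λ * (t1 - t0) ∧ |Y| ≤ Λ * (t1 - t0) * (t1 - t0) ∧
      w τ = w c + X • (a + t0 • b) + Y • b := by
  have hsub0 : Set.uIcc c τ ⊆ Set.Icc t0 t1 := Set.uIcc_subset_Icc hc hτ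
  have hsub : Set.uIcc c τ ⊆ Set.Icc α β := hsub0.trans (Set.Icc_subset_Icc h0 h1)
  have hl : ContinuousOn lam (Set.uIcc c τ) := hlam.mono hsub
  have hl2 : ContinuousOn (fun t => lam t * (t - t0)) (Set.uIcc c τ) :=
    hl.mul (continuousOn_id.sub continuousOn_const)
  have hΛ0 : 0 ≤ Λ := (abs_nonneg _).trans (hΛ c (hsub Set.left_mem_uIcc))
  have hd : |τ - c| ≤ t1 - t0 := by
    rw [abs_le]; constructor <;> linarith [hc.1, hc.2, hτ.1, hτ.2]
  have hd0 : 0 ≤ t1 - t0 := (abs_nonneg _).trans hd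
  refine ⟨∫ t in c..τ, lam t, ∫ t in c..τ, lam t * (t - t0), ?_, ?_, ?_⟩
  · have := intervalIntegral.norm_integral_le_of_norm_le_const (a := c) (b := τ) (f := lam)
      (C := Λ) (fun x hx => hΛ x (hsub (Set.uIoc_subset_uIcc hx)))
    exact this.trans (mul_le_mul_of_nonneg_left hd hΛ0)
  · have := intervalIntegral.norm_integral_le_of_norm_le_const (a := c) (b := τ)
      (f := fun t => lam t * (t - t0)) (C := Λ * (t1 - t0)) (fun x hx => by
        have hx' := hsub0 (Set.uIoc_subset_uIcc hx)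
        rw [Real.norm_eq_abs, abs_mul]
        refine mul_le_mul (hΛ x (hsub (Set.uIoc_subset_uIcc hx))) ?_ (abs_nonneg _) hΛ0
        rw [abs_le]; constructor <;> linarith [hx'.1, hx'.2])
    exact this.trans (mul_le_mul_of_nonneg_left hd (mul_nonneg hΛ0 hd0))
  · have hcont : ContinuousOn w (Set.uIcc c τ) :=
      fun x hx => ((hw' x (hsub hx)).continuousWithinAt).mono hsub
    have hftc := intervalIntegral.integral_eq_sub_of_hasDeriv_right (f := w)
      (f' := fun t => lam t • (a + t • b)) (a := c) (b := τ) hcont (by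
        intro x hx
        have hx1 : α < x := lt_of_le_of_lt (le_min (h0.trans hc.1) (h0.trans hτ.1)) hx.1
        have hx2 : x < β := lt_of_lt_of_le hx.2 (max_le (hc.2.trans h1) (hτ.2.trans h1))
        exact ((hw' x ⟨hx1.le, hx2.le⟩).hasDerivAt (Icc_mem_nhds hx1 hx2)).hasDerivWithinAt)
      ((hl.smul (continuousOn_const.add (continuousOn_id.smul continuousOn_const))).intervalIntegrable)
    have e : (fun t => lam t • (a + t • b)) =
        fun t => lam t • (a + t0 • b) + (lam t * (t - t0)) • b := by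
      ext1 t; module
    have i1 : IntervalIntegrable (fun t => lam t • (a + t0 • b)) volume c τ :=
      ContinuousOn.intervalIntegrable (hl.smul continuousOn_const)
    have i2 : IntervalIntegrable (fun t => (lam t * (t - t0)) • b) volume c τ :=
      ContinuousOn.intervalIntegrable (hl2.smul continuousOn_const)
    rw [e, intervalIntegral.integral_add i1 i2, intervalIntegral.integral_smul_const,
      intervalIntegral.integral_smul_const] at hftc
    rw [add_assoc, hftc]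
    abel

/-- The outer triangle. -/
theorem mem_outer (P A B : E3) {t0 d C H ρ τ s X Y L Λ : ℝ} (hd : 0 < d) (hH : 0 < H)
    (hρ : 0 ≤ ρ) (hρH : ρ + 4 * C * d ≤ H) (hτ0 : t0 ≤ τ) (hτ1 : τ ≤ t0 + d) (hs : |s| ≤ L)
    (hX : |X| ≤ Λ * d) (hY : |Y| ≤ Λ * d * d) (hC : L * Λ ≤ C) :
    P + ρ • (A + τ • B) + s • (X • (A + t0 • B) + Y • B) ∈
      convexHull ℝ ({P + (-3 * C * d) • (A + t0 • B) + (-C * d * d) • B,
        P + (-3 * C * d + H) • (A + t0 • B) + (-C * d * d) • B,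
        P + (-3 * C * d + H) • (A + t0 • B) + (-C * d * d + H * d) • B} : Set E3) := by
  rw [mem_convexHull_tri_iff]
  have hL : 0 ≤ L := (abs_nonneg _).trans hs
  have h1 : |s * X| ≤ C * d := by
    rw [abs_mul]
    calc |s| * |X| ≤ L * (Λ * d) := mul_le_mul hs hX (abs_nonneg _) hL
      _ = (L * Λ) * d := by ring
      _ ≤ C * d := mul_le_mul_of_nonneg_right hC hd.le
  have h2 : |s * Y| ≤ C * d * d := by
    rw [abs_mul]
    calc |s| * |Y| ≤ L * (Λ * d * d) := mul_le_mul hs hY (abs_nonneg _) hL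
      _ = (L * Λ) * (d * d) := by ring
      _ ≤ C * (d * d) := mul_le_mul_of_nonneg_right hC (by positivity)
      _ = C * d * d := by ring
  rw [abs_le] at h1 h2
  have h3 : 0 ≤ ρ * (τ - t0) := mul_nonneg hρ (by linarith)
  have h4 : ρ * (τ - t0) ≤ ρ * d := mul_le_mul_of_nonneg_left (by linarith) hρ
  have hHd : 0 < H * d := mul_pos hH hd
  refine ⟨((ρ + s * X + 2 * C * d) * d - (ρ * (τ - t0) + s * Y)) / (H * d),
    (ρ * (τ - t0) + s * Y + C * d * d) / (H * d), ?_, ?_, ?_, ?_⟩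
  · apply div_nonneg _ hHd.le
    nlinarith [mul_le_mul_of_nonneg_right h1.1 hd.le]
  · apply div_nonneg _ hHd.le
    linarith [h2.1]
  · rw [← add_div, div_le_one hHd]
    nlinarith [mul_le_mul_of_nonneg_right h1.2 hd.le, mul_le_mul_of_nonneg_right hρH hd.le]
  · match_scalars <;> field_simp <;> ring

/-- The inner triangle. -/
theorem inner_param (P A B : E3) {t0 t1 m : ℝ} (h01 : t0 ≤ t1) (hm : 0 ≤ m) {z : E3}
    (hz : z ∈ convexHull ℝ ({P, P + m • (A + t0 • B), P + m • (A + t1 • B)} : Set E3)) :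
    ∃ τ ∈ Set.Icc t0 t1, ∃ ρ ∈ Set.Icc 0 m, z = P + ρ • (A + τ • B) := by
  rw [mem_convexHull_tri_iff] at hz
  obtain ⟨x, y, hx, hy, hxy, rfl⟩ := hz
  rcases (add_nonneg hx hy).lt_or_eq with h | h
  · refine ⟨t0 + (t1 - t0) * (y / (x + y)), ⟨?_, ?_⟩, (x + y) * m, ⟨by positivity, ?_⟩, ?_⟩
    · have : 0 ≤ (t1 - t0) * (y / (x + y)) := mul_nonneg (by linarith) (by positivity)
      linarith
    · have h1 : y / (x + y) ≤ 1 := (div_le_one h).mpr (by linarith)
      nlinarith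
    · nlinarith
    · match_scalars <;> field_simp <;> ring
  · have hx0 : x = 0 := by linarith
    have hy0 : y = 0 := by linarith
    subst hx0 hy0
    exact ⟨t0, ⟨le_rfl, h01⟩, 0, ⟨le_rfl, hm⟩, by simp⟩

/-- The part of the sweep over a parameter interval. -/
def piece (e a b p₀ : E3) (L : ℝ) (R : ℝ → ℝ) (w : ℝ → E3) (t0 t1 : ℝ) : Set E3 :=
  {x | ∃ τ ∈ Set.Icc t0 t1, ∃ ρ ∈ Set.Icc 0 (R τ), ∃ s : ℝ, abs s ≤ L ∧
    x = p₀ + ρ • (a + τ • b) + s • (e + w τ)}

theorem piece_main {e a b p₀ : E3} (he : ‖e‖ = 1) (ha : inner ℝ a e = 0) (hb : inner ℝ b e = 0)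
    (hab : LinearIndependent ℝ ![a, b]) {L : ℝ} (hL : 0 < L) {α β : ℝ} {R : ℝ → ℝ}
    (hR0 : ∀ t ∈ Set.Icc α β, 0 ≤ R t) {w : ℝ → E3}
    (hw : ∀ t ∈ Set.Icc α β, inner ℝ (w t) e = 0) {lam : ℝ → ℝ}
    (hlam : ContinuousOn lam (Set.Icc α β))
    (hw' : ∀ t ∈ Set.Icc α β, HasDerivWithinAt w (lam t • (a + t • b)) (Set.Icc α β) t)
    {Λ : ℝ} (hΛ : ∀ t ∈ Set.Icc α β, |lam t| ≤ Λ) {Rm : ℝ} (hRm : ∀ t ∈ Set.Icc α β, R t ≤ Rm)
    {t0 t1 c θ : ℝ} (h0 : α ≤ t0) (h1 : t1 ≤ β) (h01 : t0 < t1) (hc : c ∈ Set.Icc t0 t1)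
    (hθ : 0 < θ) (hθ1 : θ ≤ 1 / 2) (hθd : 4 * (L * Λ) * (t1 - t0) ≤ θ)
    (hRc : ∀ τ ∈ Set.Icc t0 t1, |R τ - R c| ≤ θ) :
    ∃ p q r : E3, (inner ℝ p (e + w c) = 0 ∧ inner ℝ q (e + w c) = 0 ∧ inner ℝ r (e + w c) = 0) ∧
      AffineIndependent ℝ ![p, q, r] ∧
      (∀ x ∈ piece e a b p₀ L R w t0 t1, pr (e + w c) x ∈ convexHull ℝ ({p, q, r} : Set E3)) ∧
      |(μHE[2] (convexHull ℝ ({p, q, r} : Set E3))).toReal -
          gramA a b * (R c ^ 2 / (2 * Real.sqrt (1 + ‖w c‖ ^ 2))) * (t1 - t0)| ≤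
        gramA a b * (θ * (2 * Rm + 1)) * (t1 - t0) ∧
      |(μHE[2] (pr (e + w c) '' piece e a b p₀ L R w t0 t1)).toReal -
          gramA a b * (R c ^ 2 / (2 * Real.sqrt (1 + ‖w c‖ ^ 2))) * (t1 - t0)| ≤
        gramA a b * (θ * (2 * Rm + 1)) * (t1 - t0) := by
  have hsub : Set.Icc t0 t1 ⊆ Set.Icc α β := Set.Icc_subset_Icc h0 h1
  have hcI := hsub hc
  have hu : e + w c ≠ 0 := axis_ne_zero he (hw c hcI)
  set u := e + w c with hudef
  set P := pr u p₀
  set A := pr u a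
  set B := pr u b
  set d := t1 - t0 with hd
  have hd0 : 0 < d := sub_pos.mpr h01
  set C := L * Λ with hC
  set H := R c + 2 * θ with hH
  have hRc0 := hR0 c hcI
  have hRcm := hRm c hcI
  have hH0 : 0 < H := by positivity
  have hκ := gramA_pos hab
  set κ := gramA a b
  set S := Real.sqrt (1 + ‖w c‖ ^ 2) with hS
  have hS1 : 1 ≤ S := Real.one_le_sqrt.mpr (by nlinarith [sq_nonneg ‖w c‖])
  have hS0 : 0 < S := by linarith
  have hAB : gramA A B = κ / S := gramA_pr he (hw c hcI) ha hb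
  have hg1 : κ / S ≤ κ := div_le_self hκ.le hS1
  have hg0 : 0 < κ / S := div_pos hκ hS0
  have hPu : inner ℝ P u = 0 := pr_inner hu _
  have hAu : inner ℝ A u = 0 := pr_inner hu _
  have hBu : inner ℝ B u = 0 := pr_inner hu _
  set p := P + (-3 * C * d) • (A + t0 • B) + (-C * d * d) • B with hp
  set q := P + (-3 * C * d + H) • (A + t0 • B) + (-C * d * d) • B with hq
  set r := P + (-3 * C * d + H) • (A + t0 • B) + (-C * d * d + H * d) • B with hr
  have hgram : gramA (q - p) (r - p) = H ^ 2 * d * (κ / S) := by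
    have e1 : q - p = H • A + (H * t0) • B := by rw [hp, hq]; module
    have e2 : r - p = H • A + (H * t0 + H * d) • B := by rw [hp, hr]; module
    rw [e1, e2, gramA_comb, hAB, abs_of_nonneg (by nlinarith [mul_pos (mul_pos hH0 hH0) hd0])]
    ring
  have hmem : ∀ x ∈ piece e a b p₀ L R w t0 t1,
      pr u x ∈ convexHull ℝ ({p, q, r} : Set E3) := by
    rintro _ ⟨τ, hτ, ρ, hρ, s, hs, rfl⟩
    obtain ⟨X, Y, hX, hY, hXY⟩ := increment hlam hw' hΛ h0 h1 hc hτ
    have e1 : p₀ + ρ • (a + τ • b) + s • (e + w τ) =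
        p₀ + ρ • (a + τ • b) + s • (X • (a + t0 • b) + Y • b) + s • u := by
      rw [hXY, hudef]; module
    rw [e1]
    simp only [pr_add, pr_smul, pr_self hu, smul_zero, add_zero]
    refine mem_outer P A B hd0 hH0 hρ.1 ?_ hτ.1 (by linarith [hτ.2]) hs hX hY le_rfl
    have := (abs_le.mp (hRc τ hτ)).2
    linarith [hρ.2]
  have harea : (μHE[2] (convexHull ℝ ({p, q, r} : Set E3))).toReal = H ^ 2 * d * (κ / S) / 2 := by
    rw [area_triangle_toReal, hgram]
  have htarget : κ * (R c ^ 2 / (2 * S)) * d = R c ^ 2 * d * (κ / S) / 2 := by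
    field_simp
  have hup : H ^ 2 * d * (κ / S) / 2 - R c ^ 2 * d * (κ / S) / 2 ≤ κ * (θ * (2 * Rm + 1)) * d := by
    have e1 : H ^ 2 - R c ^ 2 ≤ 2 * (θ * (2 * Rm + 1)) := by rw [hH]; nlinarith
    have e2 : 0 ≤ θ * (2 * Rm + 1) := by apply mul_nonneg hθ.le; linarith
    calc H ^ 2 * d * (κ / S) / 2 - R c ^ 2 * d * (κ / S) / 2
        = (H ^ 2 - R c ^ 2) / 2 * (κ / S) * d := by ring
      _ ≤ (θ * (2 * Rm + 1)) * κ * d := by
        apply mul_le_mul_of_nonneg_right _ hd0.le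
        exact mul_le_mul (by linarith) hg1 hg0.le e2
      _ = _ := by ring
  have hbd0 : 0 ≤ κ * (θ * (2 * Rm + 1)) * d := by
    have : 0 ≤ 2 * Rm + 1 := by linarith
    positivity
  refine ⟨p, q, r, ⟨?_, ?_, ?_⟩, ?_, hmem, ?_, ?_⟩
  · simp [hp, inner_add_left, real_inner_smul_left, hPu, hAu, hBu]
  · simp [hq, inner_add_left, real_inner_smul_left, hPu, hAu, hBu]
  · simp [hr, inner_add_left, real_inner_smul_left, hPu, hAu, hBu]
  · apply affineIndependent_of_gramA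
    rw [hgram]
    positivity
  · rw [harea, htarget, abs_le]
    refine ⟨?_, hup⟩
    have : R c ^ 2 * d * (κ / S) ≤ H ^ 2 * d * (κ / S) := by
      apply mul_le_mul_of_nonneg_right _ hg0.le
      apply mul_le_mul_of_nonneg_right _ hd0.le
      rw [hH]; nlinarith
    linarith
  · have hfin : μHE[2] (convexHull ℝ ({p, q, r} : Set E3)) ≠ ⊤ := by
      rw [area_triangle]; exact ENNReal.ofReal_ne_top
    have hle : μHE[2] (pr u '' piece e a b p₀ L R w t0 t1) ≤
        μHE[2] (convexHull ℝ ({p, q, r} : Set E3)) := by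
      apply measure_mono
      rintro _ ⟨x, hx, rfl⟩
      exact hmem x hx
    have hle' := ENNReal.toReal_mono hfin hle
    set m := max (R c - θ) 0 with hm
    have hm0 : 0 ≤ m := le_max_right _ _
    have hlow : μHE[2] (convexHull ℝ ({P, P + m • (A + t0 • B), P + m • (A + t1 • B)} : Set E3)) ≤
        μHE[2] (pr u '' piece e a b p₀ L R w t0 t1) := by
      apply measure_mono
      intro z hz
      obtain ⟨τ, hτ, ρ, hρ, rfl⟩ := inner_param P A B h01.le hm0 hz
      refine ⟨p₀ + ρ • (a + τ • b) + (0 : ℝ) • (e + w τ), ⟨τ, hτ, ρ, ⟨hρ.1, hρ.2.trans ?_⟩, 0,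
        by simpa using hL.le, rfl⟩, ?_⟩
      · have := (abs_le.mp (hRc τ hτ)).1
        exact max_le (by linarith) (hR0 τ (hsub hτ))
      · simp only [zero_smul, add_zero, pr_add, pr_smul]
        rfl
    have hlow' := ENNReal.toReal_mono (ne_top_of_le_ne_top hfin hle) hlow
    have hgram2 : gramA (P + m • (A + t0 • B) - P) (P + m • (A + t1 • B) - P) =
        m ^ 2 * d * (κ / S) := by
      have e1 : P + m • (A + t0 • B) - P = m • A + (m * t0) • B := by module
      have e2 : P + m • (A + t1 • B) - P = m • A + (m * t1) • B := by module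
      have e3 : m * (m * t1) - m * t0 * m = m ^ 2 * d := by rw [hd]; ring
      rw [e1, e2, gramA_comb, hAB, e3, abs_of_nonneg (by positivity)]
    rw [area_triangle_toReal, hgram2] at hlow'
    rw [harea] at hle'
    rw [htarget, abs_le]
    refine ⟨?_, by linarith⟩
    have e1 : R c ^ 2 - m ^ 2 ≤ 2 * (θ * (2 * Rm + 1)) := by
      have a1 : R c - θ ≤ m := le_max_left _ _
      have a2 : m ≤ R c := max_le (by linarith) hRc0
      nlinarith
    have e2 : 0 ≤ θ * (2 * Rm + 1) := by apply mul_nonneg hθ.le; linarith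
    have e3 : R c ^ 2 * d * (κ / S) / 2 - m ^ 2 * d * (κ / S) / 2 ≤
        κ * (θ * (2 * Rm + 1)) * d := by
      calc R c ^ 2 * d * (κ / S) / 2 - m ^ 2 * d * (κ / S) / 2
          = (R c ^ 2 - m ^ 2) / 2 * (κ / S) * d := by ring
        _ ≤ (θ * (2 * Rm + 1)) * κ * d := by
          apply mul_le_mul_of_nonneg_right _ hd0.le
          exact mul_le_mul (by linarith) hg1 hg0.le e2
        _ = _ := by ring
    linarith

end Crest.Agent.R211.Sweep
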