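import Crest.Agent.R211.Cover

/-!
The explicit cover of the tetrahedron, padding, similarity transport, parallelogram and open bases.
-/

set_option autoImplicit false
open MeasureTheory
open scoped ENNReal

namespace Crest.Agent.R211

theorem norm_E3 (a : E3) : ‖a‖ = Real.sqrt (a 0 ^ 2 + a 1 ^ 2 + a 2 ^ 2) := by
  rw [← norm_sq_E3, Real.sqrt_sq (norm_nonneg _)]

theorem triCover_Ktet_aux (N : ℕ) (e d : ℝ) (he : e = 1 / 1000) (hd : d = 1 / 1000000)
    (hN : (N : ℝ) * d = 2) :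
    ∃ A : ℝ, A ≤ Real.sqrt 2 * (1 / 2 - 8 / 10 ^ 9) ∧ TriCover Ktet (Fin N ⊕ Fin N) A := by
  have he0 : 0 < e := by rw [he]; norm_num
  have he1 : e ≤ 1 := by rw [he]; norm_num
  have hd0 : 0 < d := by rw [hd]; norm_num
  have hd1 : d ≤ 1 := by rw [hd]; norm_num
  have hs0 : 0 < Real.sqrt 2 := by positivity
  have hs : Real.sqrt 2 ^ 2 = 2 := Real.sq_sqrt (by norm_num)
  obtain ⟨s, hsdef⟩ : ∃ s, s = Real.sqrt 2 := ⟨_, rfl⟩
  rw [← hsdef] at hs0 hs ⊢
  obtain ⟨c, hc⟩ : ∃ c : Fin N → ℝ, c = fun i : Fin N => -1 + (i : ℝ) * d := ⟨_, rfl⟩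
  obtain ⟨R, hR⟩ : ∃ R : Fin N → ℝ, R = fun i => Rf e (c i) + 3 / 2 * e ^ 2 * d := ⟨_, rfl⟩
  obtain ⟨ℓ, hℓ⟩ : ∃ ℓ : Fin N → ℝ, ℓ = fun i => R i + 2 * e * d := ⟨_, rfl⟩
  have hc1 : ∀ i, |c i| ≤ 1 := by
    intro i
    have hi' : (i : ℝ) ≤ N := by exact_mod_cast i.2.le
    have h0 : 0 ≤ (i : ℝ) * d := by positivity
    have h1 := mul_le_mul_of_nonneg_right hi' hd0.le
    rw [hc, abs_le]
    constructor <;> simp only <;> linarith
  have hR0 : ∀ i, 0 < R i := by
    intro i; rw [hR]; unfold Rf; positivity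
  let V : Fin N ⊕ Fin N → E3 := Sum.elim
    (fun i => !₂[0, -(e * d * c i) - e * d ^ 2 / 2, s * (-(e * d))])
    (fun i => !₂[-(e * d * c i) - e * d ^ 2 / 2, 0, s + s * (e * d)])
  let A : Fin N ⊕ Fin N → E3 := Sum.elim
    (fun i => !₂[0, ℓ i * c i, s * ℓ i]) (fun i => !₂[ℓ i * c i, 0, -(s * ℓ i)])
  let B : Fin N ⊕ Fin N → E3 := Sum.elim
    (fun i => !₂[0, ℓ i * (c i + d), s * ℓ i]) (fun i => !₂[ℓ i * (c i + d), 0, -(s * ℓ i)])
  let U : Fin N ⊕ Fin N → E3 := Sum.elim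
    (fun i => !₂[1, -(e * (c i ^ 2 + 1) / 2), s * (-(e * c i))])
    (fun i => !₂[e * (c i ^ 2 + 1) / 2, 1, s * (-(e * c i))])
  have hU : ∀ i, U i ≠ 0 := by
    rintro (i | i) h
    · have := congrArg (fun X : E3 => X 0) h
      simp [U] at this
    · have := congrArg (fun X : E3 => X 1) h
      simp [U] at this
  refine ⟨_, ?_, triCover_of_gen V A B U hU ?_⟩
  · have hcost : ∀ j : Fin N ⊕ Fin N, |det3 (A j) (B j) (U j)| / (2 * ‖U j‖) ≤
        s / 2 * (d * (1 / 4 + 402 / 10 ^ 11) + e ^ 2 / 4 * (d * (c (Sum.elim id id j) ^ 4 -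
          (c (Sum.elim id id j) ^ 2 + 1) ^ 2 / 8))) := by
      intro j
      set i := Sum.elim id id j with hi
      have h1 : |det3 (A j) (B j) (U j)| = s * d * ℓ i ^ 2 := by
        have : det3 (A j) (B j) (U j) = -(s * d * ℓ i ^ 2) := by
          rcases j with j | j
          · simp [A, B, U, det3, hi]; ring
          · simp [A, B, U, det3, hi]; ring
        rw [this, abs_neg, abs_of_nonneg (by positivity)]
      have h2 : ‖U j‖ = Real.sqrt (1 + e ^ 2 * ((c i ^ 2 + 1) ^ 2 / 4 + 2 * c i ^ 2)) := by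
        rw [norm_E3]
        congr 1
        rcases j with j | j
        · simp [U, hi]; linear_combination (e ^ 2 * c j ^ 2) * hs
        · simp [U, hi]; linear_combination (e ^ 2 * c j ^ 2) * hs
      have h3 := cost_pointwise e d (c i) he hd (hc1 i)
      have h4 : Rf e (c i) + 3 / 2 * e ^ 2 * d + 2 * e * d = ℓ i := by rw [hℓ, hR]
      rw [h4] at h3
      rw [h1, h2]
      have h5 := mul_le_mul_of_nonneg_left h3 (show 0 ≤ s / 2 * d by positivity)
      calc _ = s / 2 * d * (ℓ i ^ 2 /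
          Real.sqrt (1 + e ^ 2 * ((c i ^ 2 + 1) ^ 2 / 4 + 2 * c i ^ 2))) := by ring
        _ ≤ _ := h5
        _ = _ := by ring
    refine (Finset.sum_le_sum (fun j _ => hcost j)).trans ?_
    rw [Fintype.sum_sum_type]
    simp only [Sum.elim_inl, Sum.elim_inr, id]
    rw [← two_mul, ← Finset.mul_sum, Finset.sum_add_distrib, Finset.sum_const,
      Finset.card_univ, Fintype.card_fin, nsmul_eq_mul, ← mul_assoc (N : ℝ), hN,
      ← Finset.mul_sum]
    have h6 := sum_f_le N d hd0 hd1 hN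
    have h7 : ∑ i : Fin N, d * (c i ^ 4 - (c i ^ 2 + 1) ^ 2 / 8) ≤ -1 / 15 + 6 * d := by
      rw [hc]; exact h6
    have h8 : 2 * (1 / 4 + 402 / 10 ^ 11) +
        e ^ 2 / 4 * ∑ i : Fin N, d * (c i ^ 4 - (c i ^ 2 + 1) ^ 2 / 8) ≤ 1 / 2 - 8 / 10 ^ 9 := by
      have := mul_le_mul_of_nonneg_left h7 (show 0 ≤ e ^ 2 / 4 by positivity)
      have h9 : e ^ 2 / 4 * (-1 / 15 + 6 * d) ≤ -(1666 / 10 ^ 11) := by
        rw [he, hd]; norm_num
      linarith
    have := mul_le_mul_of_nonneg_left h8 hs0.le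
    linarith
  · intro P hP
    obtain ⟨z, hz, hx, hy⟩ := mem_Ktet hP
    rw [← hsdef] at hz
    have hz0 : 0 ≤ z := (abs_nonneg _).trans hy
    have hz1 : z ≤ 1 := by linarith [abs_nonneg (P 0)]
    obtain ⟨τ, ρ, hτ, hρ0, h1, h2⟩ := exists_root (e * P 0) (P 1) z hy
    obtain ⟨σ, ρ', hσ, hρ0', h3, h4⟩ := exists_root (-e * P 1) (P 0) (1 - z) hx
    rcases cover_ineq e (P 0) (P 1) z τ ρ σ ρ' he0 he1 hx hy hτ hσ h1 h2 h3 h4 with h | h
    · obtain ⟨i, hi1, hi2⟩ := exists_piece_index N d τ hd0 hN hτ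
      have hi1' : c i ≤ τ := by rw [hc]; exact hi1
      have hi2' : τ ≤ c i + d := by rw [hc]; exact hi2
      have hρR : ρ ≤ R i := by
        rw [hR]; exact h.trans (Rf_le e (c i) τ d (hc1 i) hτ hi1' hi2')
      obtain ⟨α, β, hα, hβ, hαβ, k1, k2⟩ := piece e e d (c i) (R i) (P 0) (P 1) z τ ρ
        (abs_of_pos he0).le (by linarith) hd0 hi1' hi2' hρ0 hρR (hR0 i) h1 h2
      have hℓi : R i + 2 * e * d = ℓ i := by rw [hℓ]
      rw [hℓi] at k1 k2
      refine ⟨Sum.inl i, α, β, P 0, hα, hβ, hαβ, ?_⟩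
      ext j
      fin_cases j
      · simp [V, A, B, U]
      · simp [V, A, B, U]; linear_combination k1
      · simp [V, A, B, U]; linear_combination hz + s * k2
    · obtain ⟨i, hi1, hi2⟩ := exists_piece_index N d σ hd0 hN hσ
      have hi1' : c i ≤ σ := by rw [hc]; exact hi1
      have hi2' : σ ≤ c i + d := by rw [hc]; exact hi2
      have hρR : ρ' ≤ R i := by
        rw [hR]; exact h.trans (Rf_le e (c i) σ d (hc1 i) hσ hi1' hi2')
      obtain ⟨α, β, hα, hβ, hαβ, k1, k2⟩ := piece (-e) e d (c i) (R i) (P 1) (P 0) (1 - z) σ ρ'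
        (by rw [abs_neg]; exact (abs_of_pos he0).le) (by linarith) hd0 hi1' hi2' hρ0' hρR
        (hR0 i) h3 h4
      have hℓi : R i + 2 * e * d = ℓ i := by rw [hℓ]
      rw [hℓi] at k1 k2
      refine ⟨Sum.inr i, α, β, P 1, hα, hβ, hαβ, ?_⟩
      ext j
      fin_cases j
      · simp [V, A, B, U]; linear_combination k1
      · simp [V, A, B, U]
      · simp [V, A, B, U]; linear_combination hz - s * k2

theorem TriCover.equiv {K : Set E3} {ι κ : Type} [Fintype ι] [Fintype κ] {A : ℝ}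
    (h : TriCover K ι A) (f : κ ≃ ι) : TriCover K κ A := by
  obtain ⟨u, p, q, r, h1, h2, h3, h4⟩ := h
  refine ⟨u ∘ f, p ∘ f, q ∘ f, r ∘ f, fun i => h1 _, fun i => h2 _, ?_, ?_⟩
  · intro x hx
    obtain ⟨i, hi⟩ := Set.mem_iUnion.mp (h3 hx)
    refine Set.mem_iUnion.mpr ⟨f.symm i, ?_⟩
    simpa using hi
  · rw [← h4]
    exact Fintype.sum_equiv f _ _ (fun i => rfl)

theorem TriCover.pad {K : Set E3} {ι : Type} [Fintype ι] {A T : ℝ}
    (h : TriCover K ι A) (hAT : A ≤ T) (m : ℕ) (hm : 0 < m) : TriCover K (ι ⊕ Fin m) T := by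
  obtain ⟨u, p, q, r, h1, h2, h3, h4⟩ := h
  have hm' : (0 : ℝ) < m := by exact_mod_cast hm
  set a : ℝ := 2 * (T - A) / m with ha
  have ha0 : 0 ≤ a := by rw [ha]; have := sub_nonneg.mpr hAT; positivity
  refine ⟨Sum.elim u (fun _ => !₂[1, 0, 0]), Sum.elim p (fun _ => 0),
    Sum.elim q (fun _ => !₂[0, 1, 0]), Sum.elim r (fun _ => !₂[0, 0, a]), ?_, ?_, ?_, ?_⟩
  · rintro (i | i)
    · exact h1 i
    · simp [norm_E3]
  · rintro (i | i)
    · exact h2 i
    · simp [inner_E3]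
  · intro x hx
    obtain ⟨i, hi⟩ := Set.mem_iUnion.mp (h3 hx)
    exact Set.mem_iUnion.mpr ⟨Sum.inl i, hi⟩
  · rw [Fintype.sum_sum_type]
    simp only [Sum.elim_inl, Sum.elim_inr, h4, sub_zero]
    have : gramA (!₂[0, 1, 0] : E3) !₂[0, 0, a] = a := by
      rw [← sq_eq_sq₀ (gramA_nonneg _ _) ha0, gramA_sq, norm_sq_E3, norm_sq_E3, inner_E3]
      simp
    rw [this, Finset.sum_const, Finset.card_univ, Fintype.card_fin, nsmul_eq_mul, ha]
    field_simp
    ring

/-- For every large `M` and target `T`, a cover with exactly `M` triangles and total area `T`. -/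
theorem triCover_Ktet (M : ℕ) (hM : 4000000 < M) (T : ℝ)
    (hT : Real.sqrt 2 * (1 / 2 - 8 / 10 ^ 9) ≤ T) : TriCover Ktet (Fin M) T := by
  obtain ⟨N, hN⟩ : ∃ N : ℕ, N = 2000000 := ⟨_, rfl⟩
  obtain ⟨A, hA, hc⟩ := triCover_Ktet_aux N (1 / 1000) (1 / 1000000) rfl rfl
    (by rw [hN]; norm_num)
  refine (hc.pad (hA.trans hT) (M - 2 * N) (by omega)).equiv (Fintype.equivOfCardEq ?_)
  simp only [Fintype.card_fin, Fintype.card_sum]
  omega

theorem gramA_isometry (T : E3 ≃ₗᵢ[ℝ] E3) (a b : E3) : gramA (T a) (T b) = gramA a b := by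
  simp [gramA]

theorem TriCover.similar {K : Set E3} {ι : Type} [Fintype ι] {A : ℝ} (h : TriCover K ι A)
    (T : E3 ≃ₗᵢ[ℝ] E3) (m : E3) (l : ℝ) :
    TriCover ((fun x => m + l • T x) '' K) ι (l ^ 2 * A) := by
  obtain ⟨u, p, q, r, h1, h2, h3, h4⟩ := h
  have hu : ∀ i, ‖T (u i)‖ = 1 := fun i => by rw [T.norm_map, h1]
  have hin : ∀ i (x : E3), inner ℝ x (u i) = 0 →
      inner ℝ (proj (T (u i)) m + l • T x) (T (u i)) = 0 := by
    intro i x hx
    rw [inner_add_left, proj_inner (hu i), real_inner_smul_left, T.inner_map_map, hx]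
    simp
  refine ⟨fun i => T (u i), fun i => proj (T (u i)) m + l • T (p i),
    fun i => proj (T (u i)) m + l • T (q i), fun i => proj (T (u i)) m + l • T (r i), hu,
    fun i => ⟨hin i _ (h2 i).1, hin i _ (h2 i).2.1, hin i _ (h2 i).2.2⟩, ?_, ?_⟩
  · rintro _ ⟨x, hx, rfl⟩
    obtain ⟨i, b, hb, t, rfl⟩ := Set.mem_iUnion.mp (h3 hx)
    obtain ⟨α, β, hα, hβ, hαβ, rfl⟩ := (mem_convexHull_tri_iff _ _ _ _).mp hb
    refine Set.mem_iUnion.mpr ⟨i, proj (T (u i)) m +
      l • T (p i + α • (q i - p i) + β • (r i - p i)), ?_, inner ℝ m (T (u i)) + l * t, ?_⟩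
    · rw [mem_convexHull_tri_iff]
      refine ⟨α, β, hα, hβ, hαβ, ?_⟩
      simp only [map_add, map_smul, map_sub]
      module
    · simp only [map_add, map_smul, map_sub, proj]
      module
  · rw [← h4, Finset.mul_sum]
    apply Finset.sum_congr rfl
    intro i _
    have e1 : ∀ x y : E3, proj (T (u i)) m + l • T x - (proj (T (u i)) m + l • T y) =
        l • T (x - y) := by
      intro x y; simp only [map_sub]; module
    simp only [e1]
    rw [gramA_smul, gramA_isometry, ← abs_mul, ← sq, abs_of_nonneg (sq_nonneg l)]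
    ring

open scoped Pointwise in
theorem area_proj_similar (K : Set E3) (T : E3 ≃ₗᵢ[ℝ] E3) (m : E3) {l : ℝ} (hl : 0 < l) (v : E3) :
    μHE[2] (proj v '' ((fun x => m + l • T x) '' K)) =
      ENNReal.ofReal (l ^ 2) * μHE[2] (proj (T.symm v) '' K) := by
  have e1 : proj v '' ((fun x => m + l • T x) '' K) =
      (fun x => proj v m + x) '' (l • (T '' (proj (T.symm v) '' K))) := by
    rw [← Set.image_smul]
    simp only [Set.image_image]
    apply Set.image_congr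
    intro x _
    rw [proj_add, proj_smul]
    congr 2
    simp only [proj, map_sub, map_smul, LinearIsometryEquiv.apply_symm_apply]
    rw [← T.inner_map_map x, LinearIsometryEquiv.apply_symm_apply]
  rw [e1, area_add_image, Measure.euclideanHausdorffMeasure_smul₀ 2 hl.ne',
    T.isometry.euclideanHausdorffMeasure_image, ENNReal.smul_def, smul_eq_mul]
  congr 1
  rw [ENNReal.ofReal_pow hl.le, ENNReal.coe_pow, ← Real.enorm_eq_ofReal hl.le]
  rfl

end Crest.Agent.R211
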